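import Vale.Agent.P254j.Defs

open MeasureTheory

namespace Vale.Agent.P254j

/-- `∫_0^1 (1-t)^a t^b dt = a! b! / (a+b+1)!` -/
theorem beta_nat (a b : ℕ) :
    ∫ t in (0:ℝ)..1, (1 - t) ^ a * t ^ b = (a.factorial * b.factorial : ℝ) / (a + b + 1).factorial := by
  induction a generalizing b with
  | zero =>
    simp only [pow_zero, one_mul, integral_pow, Nat.factorial_zero, Nat.cast_one, zero_add]
    rw [Nat.factorial_succ]
    have hb : (b.factorial : ℝ) ≠ 0 := by exact_mod_cast b.factorial_ne_zero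
    push_cast
    field_simp
    simp
  | succ a ih =>
    have h1 : ∀ t : ℝ, (1 - t) ^ (a + 1) * t ^ b = (1 - t) ^ a * t ^ b - (1 - t) ^ a * t ^ (b + 1) := by
      intro t; ring
    simp only [h1]
    rw [intervalIntegral.integral_sub (Continuous.intervalIntegrable (by fun_prop) _ _)
      (Continuous.intervalIntegrable (by fun_prop) _ _), ih b, ih (b + 1)]
    have e1 : a + (b + 1) + 1 = (a + b + 1) + 1 := by ring
    have e2 : a + 1 + b + 1 = (a + b + 1) + 1 := by ring
    rw [e1, e2, Nat.factorial_succ (a + b + 1), Nat.factorial_succ b, Nat.factorial_succ a]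
    have hb : ((a + b + 1).factorial : ℝ) ≠ 0 := by exact_mod_cast (a + b + 1).factorial_ne_zero
    push_cast
    field_simp
    ring

/-- `s_n = (n!)² / ((n+1)^(n+1) (n+2)^n)`, the value of `det Σ / |·|²` at a simplex. -/
noncomputable def s (n : ℕ) : ℝ := (n.factorial : ℝ) ^ 2 / ((n + 1 : ℝ) ^ (n + 1) * (n + 2) ^ n)

theorem s_pos (n : ℕ) : 0 < s n := by
  unfold s; positivity

end Vale.Agent.P254j
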