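import Mathlib

open MeasureTheory

namespace Vale.Agent.P254j

/-- A convex body in `ℝ^ι`: a compact convex set with nonempty interior. -/
def IsBody {ι : Type} [Fintype ι] (K : Set (ι → ℝ)) : Prop :=
  Convex ℝ K ∧ IsCompact K ∧ (interior K).Nonempty

/-- Lebesgue volume. -/
noncomputable def vol {ι : Type} [Fintype ι] (K : Set (ι → ℝ)) : ℝ := (volume K).toReal

/-- Centroid: `b_K = |K|⁻¹ ∫_K x dx`. -/
noncomputable def bar {ι : Type} [Fintype ι] (K : Set (ι → ℝ)) : ι → ℝ :=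
  fun i => (vol K)⁻¹ * ∫ x in K, x i

/-- Covariance matrix: `Σ_K = |K|⁻¹ ∫_K (x - b_K)(x - b_K)ᵀ dx`. -/
noncomputable def Cov {ι : Type} [Fintype ι] (K : Set (ι → ℝ)) : Matrix ι ι ℝ :=
  Matrix.of fun i j => (vol K)⁻¹ * ∫ x in K, (x i - bar K i) * (x j - bar K j)

/-- The isotropic constant `L_K = (det Σ_K / |K|²)^(1/(2n))` of `K ⊆ ℝ^ι`, `n = |ι|`. -/
noncomputable def isoConst {ι : Type} [Fintype ι] [DecidableEq ι] (K : Set (ι → ℝ)) : ℝ :=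
  ((Cov K).det / vol K ^ 2) ^ (1 / (2 * (Fintype.card ι : ℝ)))

/-- The standard `n`-simplex `{x : x_i ≥ 0, ∑ x_i ≤ 1}`, the convex hull of `0, e_1, ..., e_n`. -/
def stdSimp (n : ℕ) : Set (Fin n → ℝ) := {x | (∀ i, 0 ≤ x i) ∧ ∑ i, x i ≤ 1}

/-- The join of `K ⊆ ℝ^ι` and `L ⊆ ℝ^κ` in `ℝ^(1 + ι + κ)`: all points `(t, (1 - t) x, t y)` with
`0 ≤ t ≤ 1`, `x ∈ K`, `y ∈ L`, i.e. the convex hull of `{0} × K × {0}` and `{1} × {0} × L`. -/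
def Join {ι κ : Type} (K : Set (ι → ℝ)) (L : Set (κ → ℝ)) : Set (Unit ⊕ (ι ⊕ κ) → ℝ) :=
  {z | 0 ≤ z (Sum.inl ()) ∧ z (Sum.inl ()) ≤ 1 ∧
    (∃ x ∈ K, ∀ i, z (Sum.inr (Sum.inl i)) = (1 - z (Sum.inl ())) * x i) ∧
    (∃ y ∈ L, ∀ j, z (Sum.inr (Sum.inr j)) = z (Sum.inl ()) * y j)}

/-- The Cartesian product of `K ⊆ ℝ^ι` and `L ⊆ ℝ^κ` in `ℝ^(ι + κ)`. -/
def Prd {ι κ : Type} (K : Set (ι → ℝ)) (L : Set (κ → ℝ)) : Set (ι ⊕ κ → ℝ) :=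
  {z | (fun i => z (Sum.inl i)) ∈ K ∧ (fun j => z (Sum.inr j)) ∈ L}

end Vale.Agent.P254j
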