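import Vale.Agent.P254j.Join

open MeasureTheory Set
open scoped Pointwise

namespace Vale.Agent.P254j

variable {ι κ : Type} [Fintype ι] [Fintype κ]

theorem J'_convex {K : Set (ι → ℝ)} {L : Set (κ → ℝ)} (hK : Convex ℝ K) (hL : Convex ℝ L) :
    Convex ℝ (J' K L) := by
  rintro ⟨t, a, b⟩ ⟨ht, ha, hb⟩ ⟨t', a', b'⟩ ⟨ht', ha', hb'⟩ u v hu hv huv
  simp only at ht ha hb ht' ha' hb'
  refine ⟨?_, ?_, ?_⟩
  · exact (convex_Icc (0:ℝ) 1) ht ht' hu hv huv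
  · have h1 : (1 - (u • t + v • t') : ℝ) = u * (1 - t) + v * (1 - t') := by
      simp only [smul_eq_mul]; nlinarith
    show u • a + v • a' ∈ (1 - (u • t + v • t')) • K
    rw [h1, hK.add_smul (mul_nonneg hu (by linarith [ht.2])) (mul_nonneg hv (by linarith [ht'.2]))]
    refine add_mem_add ?_ ?_
    · rw [mul_smul]; exact smul_mem_smul_set ha
    · rw [mul_smul]; exact smul_mem_smul_set ha'
  · show u • b + v • b' ∈ (u • t + v • t') • L
    rw [smul_eq_mul, smul_eq_mul, hL.add_smul (mul_nonneg hu ht.1) (mul_nonneg hv ht'.1)]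
    refine add_mem_add ?_ ?_
    · rw [mul_smul]; exact smul_mem_smul_set hb
    · rw [mul_smul]; exact smul_mem_smul_set hb'

theorem J'_interior {K : Set (ι → ℝ)} {L : Set (κ → ℝ)} (hK : (interior K).Nonempty)
    (hL : (interior L).Nonempty) : (interior (J' K L)).Nonempty := by
  obtain ⟨x, hx⟩ := hK
  obtain ⟨y, hy⟩ := hL
  let S : Set (ℝ × ((ι → ℝ) × (κ → ℝ))) := {z | z.1 ∈ Ioo (0:ℝ) 1}
  let f : ℝ × ((ι → ℝ) × (κ → ℝ)) → (ι → ℝ) × (κ → ℝ) :=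
    fun z => ((1 - z.1)⁻¹ • z.2.1, z.1⁻¹ • z.2.2)
  have hS : IsOpen S := isOpen_Ioo.preimage continuous_fst
  have hf : ContinuousOn f S := by
    have h1 : ContinuousOn (fun z : ℝ × ((ι → ℝ) × (κ → ℝ)) => (1 - z.1)⁻¹) S := by
      apply ContinuousOn.inv₀ (by fun_prop)
      intro z hz
      have : z.1 < 1 := hz.2
      linarith
    have h2 : ContinuousOn (fun z : ℝ × ((ι → ℝ) × (κ → ℝ)) => z.1⁻¹) S := by
      apply ContinuousOn.inv₀ (by fun_prop)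
      intro z hz
      exact ne_of_gt hz.1
    exact (h1.smul (by fun_prop)).prodMk (h2.smul (by fun_prop))
  have hopen : IsOpen (S ∩ f ⁻¹' (interior K ×ˢ interior L)) :=
    hf.isOpen_inter_preimage hS (isOpen_interior.prod isOpen_interior)
  have hsub : S ∩ f ⁻¹' (interior K ×ˢ interior L) ⊆ J' K L := by
    rintro ⟨t, a, b⟩ ⟨⟨ht0, ht1⟩, h1, h2⟩
    simp only [f] at h1 h2 ht0 ht1
    have hn1 : (1 - t) ≠ 0 := by linarith
    have hn0 : t ≠ 0 := ne_of_gt ht0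
    refine ⟨⟨ht0.le, ht1.le⟩, ?_, ?_⟩
    · refine ⟨(1 - t)⁻¹ • a, interior_subset h1, ?_⟩
      simp [smul_smul, hn1]
    · refine ⟨t⁻¹ • b, interior_subset h2, ?_⟩
      simp [smul_smul, hn0]
  refine ⟨(1/2, ((1/2 : ℝ) • x, (1/2 : ℝ) • y)), interior_maximal hsub hopen ⟨?_, ?_⟩⟩
  · show (1/2 : ℝ) ∈ Ioo (0:ℝ) 1
    norm_num
  · refine ⟨?_, ?_⟩
    · show (1 - (1/2 : ℝ))⁻¹ • ((1/2 : ℝ) • x) ∈ interior K
      rw [smul_smul]; norm_num; exact hx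
    · show (1/2 : ℝ)⁻¹ • ((1/2 : ℝ) • y) ∈ interior L
      rw [smul_smul]; norm_num; exact hy

/-- coordinates -/
def Ψ : (Unit ⊕ (ι ⊕ κ) → ℝ) ≃ᵐ ℝ × ((ι → ℝ) × (κ → ℝ)) :=
  (MeasurableEquiv.sumPiEquivProdPi (fun _ => ℝ)).trans
    ((MeasurableEquiv.funUnique Unit ℝ).prodCongr (MeasurableEquiv.sumPiEquivProdPi (fun _ => ℝ)))

theorem Ψ_apply (z : Unit ⊕ (ι ⊕ κ) → ℝ) :
    Ψ z = (z (Sum.inl ()), ((fun i => z (Sum.inr (Sum.inl i))), fun j => z (Sum.inr (Sum.inr j)))) := rfl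

theorem Ψ_mp : MeasurePreserving (Ψ : (Unit ⊕ (ι ⊕ κ) → ℝ) ≃ᵐ ℝ × ((ι → ℝ) × (κ → ℝ))) :=
  ((volume_preserving_funUnique Unit ℝ).prod
    (volume_measurePreserving_sumPiEquivProdPi (fun _ : ι ⊕ κ => ℝ))).comp
    (volume_measurePreserving_sumPiEquivProdPi (fun _ : Unit ⊕ (ι ⊕ κ) => ℝ))

/-- the homeomorphism -/
def H : (Unit ⊕ (ι ⊕ κ) → ℝ) ≃ₜ ℝ × ((ι → ℝ) × (κ → ℝ)) where
  toFun z := (z (Sum.inl ()), ((fun i => z (Sum.inr (Sum.inl i))), fun j => z (Sum.inr (Sum.inr j))))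
  invFun w := Sum.elim (fun _ => w.1) (Sum.elim w.2.1 w.2.2)
  left_inv z := by ext (u | i | j) <;> rfl
  right_inv w := rfl
  continuous_toFun := by fun_prop
  continuous_invFun := by
    apply continuous_pi
    rintro (u | i | j) <;> simp only [Sum.elim_inl, Sum.elim_inr] <;> fun_prop

/-- The join of `K` and `L`: all points `(t, (1-t) x, t y)` with `0 ≤ t ≤ 1`, `x ∈ K`, `y ∈ L`. -/
def join (K : Set (ι → ℝ)) (L : Set (κ → ℝ)) : Set (Unit ⊕ (ι ⊕ κ) → ℝ) := H ⁻¹' J' K L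

theorem join_body {K : Set (ι → ℝ)} {L : Set (κ → ℝ)} (hK : IsBody K) (hL : IsBody L) :
    IsBody (join K L) := by
  refine ⟨?_, ?_, ?_⟩
  · intro z hz z' hz' u v hu hv huv
    have := J'_convex hK.1 hL.1 hz hz' hu hv huv
    exact this
  · have := (H (ι := ι) (κ := κ)).isCompact_preimage.2 (J'_compact hK.2.1 hL.2.1)
    exact this
  · unfold join
    rw [← Homeomorph.preimage_interior]
    obtain ⟨w, hw⟩ := J'_interior hK.2.2 hL.2.2
    exact ⟨H.symm w, by simpa using hw⟩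

theorem integral_join {K : Set (ι → ℝ)} {L : Set (κ → ℝ)} (hK : IsCompact K) (hL : IsCompact L)
    {k : ℝ → ℝ} {g : (ι → ℝ) → ℝ} {h : (κ → ℝ) → ℝ}
    (hk : Continuous k) (hg : Continuous g) (hh : Continuous h) {p q : ℕ}
    (hgp : ∀ (c : ℝ) x, g (c • x) = c ^ p * g x) (hhq : ∀ (c : ℝ) x, h (c • x) = c ^ q * h x) :
    ∫ z in join K L, k (z (Sum.inl ())) * (g (fun i => z (Sum.inr (Sum.inl i))) *
        h (fun j => z (Sum.inr (Sum.inr j)))) =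
      (∫ t in (0:ℝ)..1, k t * ((1 - t) ^ (Fintype.card ι + p) * t ^ (Fintype.card κ + q))) *
        ((∫ x in K, g x) * ∫ y in L, h y) := by
  rw [← integral_J' hK hL hk hg hh hgp hhq]
  exact Ψ_mp.setIntegral_preimage_emb Ψ.measurableEmbedding
    (fun z => k z.1 * (g z.2.1 * h z.2.2)) (J' K L)

end Vale.Agent.P254j
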