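import Vale.Agent.P254j.Moments

open MeasureTheory Set
open scoped Pointwise

namespace Vale.Agent.P254j

variable {ι κ : Type} [Fintype ι] [Fintype κ]

/-- `det Σ / |K|²` -/
noncomputable def Fk {ι : Type} [Fintype ι] [DecidableEq ι] (K : Set (ι → ℝ)) : ℝ :=
  (Cov K).det / vol K ^ 2

theorem s_identity (m n : ℕ) :
    gam m n * (alp m n ^ m * alp n m ^ n) / bb m n ^ 2 = s (m + n + 1) / (s m * s n) := by
  unfold gam alp bb s
  have h1 : (m.factorial : ℝ) ≠ 0 := by exact_mod_cast m.factorial_ne_zero
  have h2 : (n.factorial : ℝ) ≠ 0 := by exact_mod_cast n.factorial_ne_zero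
  have h3 : ((m + n + 1).factorial : ℝ) ≠ 0 := by exact_mod_cast (m + n + 1).factorial_ne_zero
  have e1 : (((m + n + 1 : ℕ) : ℝ) + 1) = (m + n + 2 : ℝ) := by push_cast; ring
  have e2 : (((m + n + 1 : ℕ) : ℝ) + 2) = (m + n + 3 : ℝ) := by push_cast; ring
  have e3 : (n + m + 2 : ℝ) = m + n + 2 := by ring
  have e4 : (n + m + 3 : ℝ) = m + n + 3 := by ring
  rw [e1, e2, e3, e4]
  have p1 : (0:ℝ) < m + n + 2 := by positivity
  have p2 : (0:ℝ) < m + n + 3 := by positivity
  have p3 : (0:ℝ) < m + 1 := by positivity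
  have p4 : (0:ℝ) < m + 2 := by positivity
  have p5 : (0:ℝ) < n + 1 := by positivity
  have p6 : (0:ℝ) < n + 2 := by positivity
  generalize (m + n + 2 : ℝ) = A at *
  generalize (m + n + 3 : ℝ) = B at *
  generalize (m + 1 : ℝ) = C at *
  generalize (m + 2 : ℝ) = D at *
  generalize (n + 1 : ℝ) = E at *
  generalize (n + 2 : ℝ) = G at *
  simp only [div_pow, mul_pow]
  field_simp
  ring

theorem Fk_join [DecidableEq ι] [DecidableEq κ] {K : Set (ι → ℝ)} {L : Set (κ → ℝ)}
    (hK : IsBody K) (hL : IsBody L) (cK : ∀ i, ∫ x in K, x i = 0)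
    (cL : ∀ j, ∫ x in L, x j = 0) :
    Fk (join K L) / s (Fintype.card ι + Fintype.card κ + 1) =
      (Fk K / s (Fintype.card ι)) * (Fk L / s (Fintype.card κ)) := by
  have hV := vol_pos hK
  have hW := vol_pos hL
  have hb := bb_pos (Fintype.card ι) (Fintype.card κ)
  have hid := s_identity (Fintype.card ι) (Fintype.card κ)
  have s1 := s_pos (Fintype.card ι)
  have s2 := s_pos (Fintype.card κ)
  have s3 := s_pos (Fintype.card ι + Fintype.card κ + 1)
  unfold Fk
  rw [Cov_join hK hL cK cL, Matrix.det_fromBlocks_zero₂₁, Matrix.det_fromBlocks_zero₂₁,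
    Matrix.det_smul, Matrix.det_smul, vol_join hK hL, Matrix.det_unique]
  simp only [Matrix.of_apply]
  have : gam (Fintype.card ι) (Fintype.card κ) *
      (alp (Fintype.card ι) (Fintype.card κ) ^ Fintype.card ι * (Cov K).det *
        (alp (Fintype.card κ) (Fintype.card ι) ^ Fintype.card κ * (Cov L).det)) /
      (bb (Fintype.card ι) (Fintype.card κ) * (vol K * vol L)) ^ 2 =
      (gam (Fintype.card ι) (Fintype.card κ) *
      (alp (Fintype.card ι) (Fintype.card κ) ^ Fintype.card ι *
        alp (Fintype.card κ) (Fintype.card ι) ^ Fintype.card κ) /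
        bb (Fintype.card ι) (Fintype.card κ) ^ 2) *
        ((Cov K).det / vol K ^ 2) * ((Cov L).det / vol L ^ 2) := by
    field_simp
  rw [this, hid]
  field_simp

theorem intK {K : Set (ι → ℝ)} (hK : IsBody K) {f : (ι → ℝ) → ℝ} (hf : Continuous f) :
    IntegrableOn f K := hf.continuousOn.integrableOn_compact hK.2.1

/-- centring -/
theorem centre' [DecidableEq ι] {K : Set (ι → ℝ)} (hK : IsBody K) :
    IsBody ((fun x => x + bar K) ⁻¹' K) ∧ Fk ((fun x => x + bar K) ⁻¹' K) = Fk K ∧
      ∀ i, ∫ x in ((fun x => x + bar K) ⁻¹' K), x i = 0 := by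
  set b : ι → ℝ := bar K with hb
  have hV := vol_pos hK
  have key : ∀ g : (ι → ℝ) → ℝ, ∫ x in (fun x => x + b) ⁻¹' K, g (x + b) = ∫ x in K, g x :=
    fun g => (measurePreserving_add_right volume b).setIntegral_preimage_emb
      (measurableEmbedding_addRight b) g K
  have hvol : vol ((fun x => x + b) ⁻¹' K) = vol K := by
    unfold vol; rw [measure_preimage_add_right]
  have hz : ∀ i, ∫ x in (fun x => x + b) ⁻¹' K, x i = 0 := by
    intro i
    have h := key (fun y => y i - b i)
    simp only [Pi.add_apply, add_sub_cancel_right] at h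
    rw [h, integral_sub (intK hK (by fun_prop)) (intK hK (by fun_prop))]
    have h2 : ∫ _ in K, b i = b i * vol K := by
      simp [vol, Measure.real, mul_comm]
    rw [h2, hb]
    unfold bar
    field_simp
    ring
  refine ⟨⟨?_, ?_, ?_⟩, ?_, hz⟩
  · intro x hx y hy u v hu hv huv
    have := hK.1 hx hy hu hv huv
    have e : u • (x + b) + v • (y + b) = (u • x + v • y) + b := by
      have : b = (u + v) • b := by rw [huv, one_smul]
      rw [smul_add, smul_add]
      nth_rw 3 [this]
      rw [add_smul]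
      abel
    rw [e] at this
    exact this
  · exact (Homeomorph.addRight b).isCompact_preimage.2 hK.2.1
  · obtain ⟨x, hx⟩ := hK.2.2
    have := (Homeomorph.addRight b).preimage_interior K
    refine ⟨x - b, ?_⟩
    have h3 : x - b ∈ (Homeomorph.addRight b) ⁻¹' interior K := by simpa using hx
    rw [this] at h3
    exact h3
  · unfold Fk
    rw [hvol]
    congr 2
    ext i j
    simp only [Cov, Matrix.of_apply]
    rw [bar_zero i (hz i), bar_zero j (hz j), hvol]
    have h := key (fun y => (y i - b i) * (y j - b j))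
    simp only [Pi.add_apply, add_sub_cancel_right] at h
    simp only [sub_zero]
    rw [h]

theorem centre [DecidableEq ι] {K : Set (ι → ℝ)} (hK : IsBody K) :
    ∃ K' : Set (ι → ℝ), IsBody K' ∧ Fk K' = Fk K ∧ ∀ i, ∫ x in K', x i = 0 := ⟨_, centre' hK⟩

/-- reindexing -/
theorem reindex' [DecidableEq ι] [DecidableEq κ] (e : ι ≃ κ) {K : Set (ι → ℝ)} (hK : IsBody K) :
    IsBody ((fun z : κ → ℝ => fun i => z (e i)) ⁻¹' K) ∧
      Fk ((fun z : κ → ℝ => fun i => z (e i)) ⁻¹' K) = Fk K := by
  have hfun : ⇑(MeasurableEquiv.piCongrLeft (fun _ : ι => ℝ) e.symm) =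
      fun z : κ → ℝ => fun i => z (e i) := by
    ext z i
    obtain ⟨j, rfl⟩ := e.symm.surjective i
    rw [MeasurableEquiv.coe_piCongrLeft, Equiv.piCongrLeft_apply_apply]
    simp
  have hmp : MeasurePreserving (fun z : κ → ℝ => fun i => z (e i)) volume volume := by
    rw [← hfun]
    exact volume_measurePreserving_piCongrLeft (fun _ : ι => ℝ) e.symm
  have hemb : MeasurableEmbedding (fun z : κ → ℝ => fun i => z (e i)) := by
    rw [← hfun]
    exact (MeasurableEquiv.piCongrLeft (fun _ : ι => ℝ) e.symm).measurableEmbedding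
  let h : (κ → ℝ) ≃ₜ (ι → ℝ) :=
    { toFun := fun z i => z (e i)
      invFun := fun y j => y (e.symm j)
      left_inv := by intro z; ext j; simp
      right_inv := by intro z; ext j; simp
      continuous_toFun := by fun_prop
      continuous_invFun := by fun_prop }
  have key : ∀ g : (ι → ℝ) → ℝ,
      ∫ z in (fun z : κ → ℝ => fun i => z (e i)) ⁻¹' K, g (fun i => z (e i)) = ∫ x in K, g x :=
    fun g => hmp.setIntegral_preimage_emb hemb g K
  have hvol : vol ((fun z : κ → ℝ => fun i => z (e i)) ⁻¹' K) = vol K := by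
    unfold vol; rw [hmp.measure_preimage_emb hemb]
  have hbar : ∀ j, bar ((fun z : κ → ℝ => fun i => z (e i)) ⁻¹' K) j = bar K (e.symm j) := by
    intro j
    unfold bar
    rw [hvol]
    have := key (fun x => x (e.symm j))
    simp only [Equiv.apply_symm_apply] at this
    rw [this]
  refine ⟨⟨?_, ?_, ?_⟩, ?_⟩
  · intro x hx y hy u v hu hv huv
    exact hK.1 hx hy hu hv huv
  · exact h.isCompact_preimage.2 hK.2.1
  · obtain ⟨x, hx⟩ := hK.2.2
    have h2 := h.preimage_interior K
    refine ⟨h.symm x, ?_⟩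
    have h3 : h.symm x ∈ h ⁻¹' interior K := by simpa using hx
    rw [h2] at h3
    exact h3
  · unfold Fk
    rw [hvol]
    congr 1
    have : Cov ((fun z : κ → ℝ => fun i => z (e i)) ⁻¹' K) = (Cov K).submatrix e.symm e.symm := by
      ext a b
      simp only [Cov, Matrix.of_apply, Matrix.submatrix_apply]
      rw [hvol, hbar a, hbar b]
      have := key (fun x => (x (e.symm a) - bar K (e.symm a)) * (x (e.symm b) - bar K (e.symm b)))
      simp only [Equiv.apply_symm_apply] at this
      rw [this]
    rw [this, Matrix.det_submatrix_equiv_self]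

theorem reindex [DecidableEq ι] [DecidableEq κ] (e : ι ≃ κ) {K : Set (ι → ℝ)} (hK : IsBody K) :
    ∃ K' : Set (κ → ℝ), IsBody K' ∧ Fk K' = Fk K := ⟨_, reindex' e hK⟩

theorem Fk_nonneg [DecidableEq ι] {K : Set (ι → ℝ)} (hK : IsBody K) : 0 ≤ Fk K := by
  have hV := vol_pos hK
  have hps : (Cov K).PosSemidef := by
    rw [Matrix.posSemidef_iff_dotProduct_mulVec]
    refine ⟨?_, ?_⟩
    · ext i j
      simp only [Matrix.conjTranspose_apply, Cov, Matrix.of_apply, star_trivial]
      congr 1
      apply integral_congr_ae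
      filter_upwards with x
      ring
    · intro v
      have e : star v ⬝ᵥ (Cov K).mulVec v =
          (vol K)⁻¹ * ∫ x in K, (∑ i, v i * (x i - bar K i)) ^ 2 := by
        have h1 : ∀ x : ι → ℝ, (∑ i, v i * (x i - bar K i)) ^ 2 =
            ∑ i, ∑ j, (v i * v j) * ((x i - bar K i) * (x j - bar K j)) := by
          intro x
          rw [pow_two, Finset.sum_mul_sum]
          refine Finset.sum_congr rfl fun i _ => Finset.sum_congr rfl fun j _ => by ring
        simp only [h1]
        rw [integral_finset_sum _ (fun i _ => intK hK (by fun_prop))]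
        simp only [dotProduct, Matrix.mulVec, star_trivial, Finset.mul_sum]
        refine Finset.sum_congr rfl fun i _ => ?_
        rw [integral_finset_sum _ (fun j _ => intK hK (by fun_prop)), Finset.mul_sum]
        refine Finset.sum_congr rfl fun j _ => ?_
        rw [integral_const_mul]
        simp only [Cov, Matrix.of_apply]
        ring
      rw [e]
      have : 0 ≤ ∫ x in K, (∑ i, v i * (x i - bar K i)) ^ 2 :=
        integral_nonneg fun x => sq_nonneg _
      positivity
  unfold Fk
  exact div_nonneg hps.det_nonneg (sq_nonneg _)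

end Vale.Agent.P254j
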