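import Vale.Agent.P254j.Beta

open MeasureTheory Set
open scoped Pointwise

namespace Vale.Agent.P254j

variable {ι κ : Type} [Fintype ι] [Fintype κ]

/-- join in product coordinates -/
def J' (K : Set (ι → ℝ)) (L : Set (κ → ℝ)) : Set (ℝ × ((ι → ℝ) × (κ → ℝ))) :=
  {z | z.1 ∈ Icc (0:ℝ) 1 ∧ z.2.1 ∈ (1 - z.1) • K ∧ z.2.2 ∈ z.1 • L}

theorem J'_compact {K : Set (ι → ℝ)} {L : Set (κ → ℝ)} (hK : IsCompact K) (hL : IsCompact L) :
    IsCompact (J' K L) := by
  have : J' K L = (fun p : ℝ × ((ι → ℝ) × (κ → ℝ)) => (p.1, ((1 - p.1) • p.2.1, p.1 • p.2.2))) ''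
      (Icc 0 1 ×ˢ (K ×ˢ L)) := by
    ext ⟨t, a, b⟩
    simp only [J', mem_setOf_eq, mem_image, mem_prod, Set.mem_smul_set, Prod.exists, Prod.mk.injEq]
    constructor
    · rintro ⟨ht, ⟨x, hx, rfl⟩, ⟨y, hy, rfl⟩⟩
      exact ⟨t, x, y, ⟨ht, hx, hy⟩, rfl, rfl, rfl⟩
    · rintro ⟨t', x, y, ⟨ht, hx, hy⟩, rfl, rfl, rfl⟩
      exact ⟨ht, ⟨x, hx, rfl⟩, ⟨y, hy, rfl⟩⟩
  rw [this]
  exact (isCompact_Icc.prod (hK.prod hL)).image (by fun_prop)

theorem integral_smul_set (K : Set (ι → ℝ)) {g : (ι → ℝ) → ℝ} {p : ℕ}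
    (hgp : ∀ (c : ℝ) x, g (c • x) = c ^ p * g x) {c : ℝ} (hc : 0 < c) :
    ∫ x in c • K, g x = c ^ (Fintype.card ι + p) * ∫ x in K, g x := by
  have h := Measure.setIntegral_comp_smul_of_pos (volume : Measure (ι → ℝ)) g K hc
  simp only [hgp, integral_const_mul, Module.finrank_fintype_fun_eq_card, smul_eq_mul] at h
  have hc' : c ^ Fintype.card ι ≠ 0 := by positivity
  rw [pow_add, mul_assoc, h]
  field_simp

theorem integral_J' {K : Set (ι → ℝ)} {L : Set (κ → ℝ)} (hK : IsCompact K) (hL : IsCompact L)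
    {k : ℝ → ℝ} {g : (ι → ℝ) → ℝ} {h : (κ → ℝ) → ℝ}
    (hk : Continuous k) (hg : Continuous g) (hh : Continuous h) {p q : ℕ}
    (hgp : ∀ (c : ℝ) x, g (c • x) = c ^ p * g x) (hhq : ∀ (c : ℝ) x, h (c • x) = c ^ q * h x) :
    ∫ z in J' K L, k z.1 * (g z.2.1 * h z.2.2) =
      (∫ t in (0:ℝ)..1, k t * ((1 - t) ^ (Fintype.card ι + p) * t ^ (Fintype.card κ + q))) *
        ((∫ x in K, g x) * ∫ y in L, h y) := by
  have hJ := J'_compact hK hL
  have hJm : MeasurableSet (J' K L) := hJ.measurableSet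
  rw [← integral_indicator hJm]
  have hint : Integrable ((J' K L).indicator
      (fun z : ℝ × ((ι → ℝ) × (κ → ℝ)) => k z.1 * (g z.2.1 * h z.2.2)))
      ((volume : Measure ℝ).prod (volume : Measure ((ι → ℝ) × (κ → ℝ)))) := by
    rw [integrable_indicator_iff hJm]
    exact (Continuous.continuousOn (by fun_prop)).integrableOn_compact hJ
  have e0 := integral_prod _ hint
  rw [show (volume : Measure (ℝ × ((ι → ℝ) × (κ → ℝ)))) = (volume : Measure ℝ).prod
    (volume : Measure ((ι → ℝ) × (κ → ℝ))) from rfl, e0]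
  have key : ∀ t ∈ Ioo (0:ℝ) 1, ∫ w : (ι → ℝ) × (κ → ℝ),
      (J' K L).indicator (fun z => k z.1 * (g z.2.1 * h z.2.2)) (t, w) =
      (k t * ((1 - t) ^ (Fintype.card ι + p) * t ^ (Fintype.card κ + q))) *
        ((∫ x in K, g x) * ∫ y in L, h y) := by
    intro t ht
    have hKm : MeasurableSet ((1 - t) • K) := (hK.smul (1 - t)).measurableSet
    have hLm : MeasurableSet (t • L) := (hL.smul t).measurableSet
    have e1 : ∀ w : (ι → ℝ) × (κ → ℝ),
        (J' K L).indicator (fun z => k z.1 * (g z.2.1 * h z.2.2)) (t, w) =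
        k t * (((1 - t) • K).indicator g w.1 * (t • L).indicator h w.2) := by
      intro w
      have hmem : (t, w) ∈ J' K L ↔ w.1 ∈ (1 - t) • K ∧ w.2 ∈ t • L := by
        simp only [J', mem_setOf_eq]
        exact ⟨fun h => h.2, fun h => ⟨⟨ht.1.le, ht.2.le⟩, h⟩⟩
      by_cases h1 : w.1 ∈ (1 - t) • K
      · by_cases h2 : w.2 ∈ t • L
        · rw [indicator_of_mem (hmem.2 ⟨h1, h2⟩), indicator_of_mem h1, indicator_of_mem h2]
        · rw [indicator_of_notMem (fun h => h2 (hmem.1 h).2), indicator_of_notMem h2]; ring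
      · rw [indicator_of_notMem (fun h => h1 (hmem.1 h).1), indicator_of_notMem h1]; ring
    simp only [e1]
    rw [integral_const_mul]
    rw [show (volume : Measure ((ι → ℝ) × (κ → ℝ))) = (volume : Measure (ι → ℝ)).prod
      (volume : Measure (κ → ℝ)) from rfl, integral_prod_mul, integral_indicator hKm,
      integral_indicator hLm, integral_smul_set K hgp (by linarith [ht.2]),
      integral_smul_set L hhq ht.1]
    ring
  have key0 : ∀ t, t ∉ Icc (0:ℝ) 1 → ∫ w : (ι → ℝ) × (κ → ℝ),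
      (J' K L).indicator (fun z => k z.1 * (g z.2.1 * h z.2.2)) (t, w) = 0 := by
    intro t ht
    have : ∀ w : (ι → ℝ) × (κ → ℝ),
        (J' K L).indicator (fun z => k z.1 * (g z.2.1 * h z.2.2)) (t, w) = 0 := by
      intro w
      rw [indicator_of_notMem]
      intro h
      exact ht h.1
    simp [this]
  have h0 : ∀ᵐ t : ℝ, t ≠ 0 := by simp [ae_iff, measure_singleton]
  have h1 : ∀ᵐ t : ℝ, t ≠ 1 := by simp [ae_iff, measure_singleton]
  rw [intervalIntegral.integral_of_le zero_le_one, ← integral_mul_const, integral_Ioc_eq_integral_Ioo,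
    ← integral_indicator measurableSet_Ioo]
  apply integral_congr_ae
  filter_upwards [h0, h1] with t ht0 ht1
  by_cases ht : t ∈ Ioo (0:ℝ) 1
  · rw [indicator_of_mem ht]; exact key t ht
  · rw [indicator_of_notMem ht]
    apply key0
    intro h
    exact ht ⟨lt_of_le_of_ne h.1 (Ne.symm ht0), lt_of_le_of_ne h.2 ht1⟩

end Vale.Agent.P254j
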