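import Vale.Agent.P254j.Ops

open Set

namespace Vale.Agent.P254j

variable {m n : ℕ}

/-- coordinates of `ℝ^(m+n+1)` -/
def G (m n : ℕ) : (Fin (m + n + 1) → ℝ) ≃ₗ[ℝ] ((Fin m → ℝ) × ((Fin n → ℝ) × ℝ)) where
  toFun z := (fun i => z (Fin.castSucc (Fin.castAdd n i)),
    (fun j => z (Fin.castSucc (Fin.natAdd m j)), z (Fin.last (m + n))))
  invFun w := Fin.snoc (α := fun _ => ℝ) (Fin.append w.1 w.2.1) w.2.2
  map_add' z z' := rfl
  map_smul' c z := rfl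
  left_inv z := by
    ext k
    refine Fin.lastCases ?_ (fun k => ?_) k
    · simp
    · refine Fin.addCases (fun i => ?_) (fun j => ?_) k
      · show Fin.snoc (α := fun _ => ℝ) (Fin.append (fun i => z (Fin.castSucc (Fin.castAdd n i)))
          (fun j => z (Fin.castSucc (Fin.natAdd m j)))) (z (Fin.last (m + n)))
          (Fin.castSucc (Fin.castAdd n i)) = _
        rw [Fin.snoc_castSucc, Fin.append_left]
      · show Fin.snoc (α := fun _ => ℝ) (Fin.append (fun i => z (Fin.castSucc (Fin.castAdd n i)))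
          (fun j => z (Fin.castSucc (Fin.natAdd m j)))) (z (Fin.last (m + n)))
          (Fin.castSucc (Fin.natAdd m j)) = _
        rw [Fin.snoc_castSucc, Fin.append_right]
  right_inv w := by
    ext k
    · show Fin.snoc (α := fun _ => ℝ) (Fin.append w.1 w.2.1) w.2.2
        (Fin.castSucc (Fin.castAdd n k)) = w.1 k
      rw [Fin.snoc_castSucc, Fin.append_left]
    · show Fin.snoc (α := fun _ => ℝ) (Fin.append w.1 w.2.1) w.2.2
        (Fin.castSucc (Fin.natAdd m k)) = w.2.1 k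
      rw [Fin.snoc_castSucc, Fin.append_right]
    · simp

/-- the shear `(a, b, t) ↦ (a - t c, b + t d, t)` -/
def shear (c : Fin m → ℝ) (d : Fin n → ℝ) :
    ((Fin m → ℝ) × ((Fin n → ℝ) × ℝ)) ≃ₗ[ℝ] ((Fin m → ℝ) × ((Fin n → ℝ) × ℝ)) where
  toFun w := (w.1 - w.2.2 • c, (w.2.1 + w.2.2 • d, w.2.2))
  invFun w := (w.1 + w.2.2 • c, (w.2.1 - w.2.2 • d, w.2.2))
  map_add' w w' := by
    ext k <;> simp <;> ring
  map_smul' r w := by
    ext k <;> simp <;> ring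
  left_inv w := by
    ext k <;> simp
  right_inv w := by
    ext k <;> simp

/-- the affine map of the join induced by affine maps of the factors -/
noncomputable def jmap (T1 : (Fin m → ℝ) ≃ᵃ[ℝ] (Fin m → ℝ)) (T2 : (Fin n → ℝ) ≃ᵃ[ℝ] (Fin n → ℝ)) :
    (Fin (m + n + 1) → ℝ) ≃ᵃ[ℝ] (Fin (m + n + 1) → ℝ) :=
  (((G m n).trans (((T1.linear.prodCongr (T2.linear.prodCongr (LinearEquiv.refl ℝ ℝ)))).trans
    (shear (T1 0) (T2 0)))).trans (G m n).symm).toAffineEquiv.trans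
    (AffineEquiv.constVAdd ℝ (Fin (m + n + 1) → ℝ) ((G m n).symm (T1 0, (0, 0))))

theorem jmap_G (T1 : (Fin m → ℝ) ≃ᵃ[ℝ] (Fin m → ℝ)) (T2 : (Fin n → ℝ) ≃ᵃ[ℝ] (Fin n → ℝ))
    (z : Fin (m + n + 1) → ℝ) :
    G m n (jmap T1 T2 z) = (T1.linear (G m n z).1 + (1 - (G m n z).2.2) • T1 0,
      (T2.linear (G m n z).2.1 + (G m n z).2.2 • T2 0, (G m n z).2.2)) := by
  simp only [jmap, AffineEquiv.trans_apply, LinearEquiv.coe_toAffineEquiv, LinearEquiv.trans_apply,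
    AffineEquiv.constVAdd_apply, vadd_eq_add, map_add, LinearEquiv.apply_symm_apply]
  simp only [shear, LinearEquiv.coe_mk, LinearMap.coe_mk, AddHom.coe_mk, LinearEquiv.prodCongr_apply,
    LinearEquiv.refl_apply]
  ext k
  · simp; ring
  · simp
  · simp

theorem mem_joinBody (K : Set (Fin m → ℝ)) (L : Set (Fin n → ℝ)) (z : Fin (m + n + 1) → ℝ) :
    z ∈ joinBody K L ↔ 0 ≤ (G m n z).2.2 ∧ (G m n z).2.2 ≤ 1 ∧
      (∃ x ∈ K, (G m n z).1 = (1 - (G m n z).2.2) • x) ∧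
      (∃ y ∈ L, (G m n z).2.1 = (G m n z).2.2 • y) := by
  constructor
  · rintro ⟨h0, h1, ⟨x, hx, hxe⟩, ⟨y, hy, hye⟩⟩
    exact ⟨h0, h1, ⟨x, hx, funext hxe⟩, ⟨y, hy, funext hye⟩⟩
  · rintro ⟨h0, h1, ⟨x, hx, hxe⟩, ⟨y, hy, hye⟩⟩
    exact ⟨h0, h1, ⟨x, hx, fun i => congrFun hxe i⟩, ⟨y, hy, fun j => congrFun hye j⟩⟩

theorem aff_eq {n : ℕ} (T : (Fin n → ℝ) ≃ᵃ[ℝ] (Fin n → ℝ)) (x : Fin n → ℝ) :
    T x = T.linear x + T 0 := by
  have h := T.map_vadd 0 x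
  simpa using h

theorem jmap_mem (T1 : (Fin m → ℝ) ≃ᵃ[ℝ] (Fin m → ℝ)) (T2 : (Fin n → ℝ) ≃ᵃ[ℝ] (Fin n → ℝ))
    (K : Set (Fin m → ℝ)) (L : Set (Fin n → ℝ)) (z : Fin (m + n + 1) → ℝ) :
    jmap T1 T2 z ∈ joinBody (T1 '' K) (T2 '' L) ↔ z ∈ joinBody K L := by
  rw [mem_joinBody, mem_joinBody, jmap_G]
  simp only
  constructor
  · rintro ⟨h0, h1, ⟨_, ⟨x, hx, rfl⟩, hxe⟩, ⟨_, ⟨y, hy, rfl⟩, hye⟩⟩
    refine ⟨h0, h1, ⟨x, hx, ?_⟩, ⟨y, hy, ?_⟩⟩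
    · rw [aff_eq T1 x, smul_add, add_left_inj, ← map_smul] at hxe
      exact T1.linear.injective hxe
    · rw [aff_eq T2 y, smul_add, add_left_inj, ← map_smul] at hye
      exact T2.linear.injective hye
  · rintro ⟨h0, h1, ⟨x, hx, hxe⟩, ⟨y, hy, hye⟩⟩
    refine ⟨h0, h1, ⟨_, ⟨x, hx, rfl⟩, ?_⟩, ⟨_, ⟨y, hy, rfl⟩, ?_⟩⟩
    · rw [aff_eq T1 x, hxe, map_smul, smul_add]
    · rw [aff_eq T2 y, hye, map_smul, smul_add]

theorem joinBody_image (T1 : (Fin m → ℝ) ≃ᵃ[ℝ] (Fin m → ℝ)) (T2 : (Fin n → ℝ) ≃ᵃ[ℝ] (Fin n → ℝ))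
    (K : Set (Fin m → ℝ)) (L : Set (Fin n → ℝ)) :
    joinBody (T1 '' K) (T2 '' L) = jmap T1 T2 '' joinBody K L := by
  ext z
  constructor
  · intro h
    refine ⟨(jmap T1 T2).symm z, ?_, by simp⟩
    rw [← jmap_mem T1 T2]
    simpa using h
  · rintro ⟨w, hw, rfl⟩
    exact (jmap_mem T1 T2 K L w).2 hw

end Vale.Agent.P254j
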