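import Vale.Agent.P254j.Simplex

open MeasureTheory Set
open scoped Pointwise

namespace Vale.Agent.P254j

variable {ι κ : Type} [Fintype ι] [Fintype κ]

theorem iso_pow [DecidableEq ι] {K : Set (ι → ℝ)} (hK : IsBody K) (hn : 0 < Fintype.card ι) :
    isoConst K ^ (2 * Fintype.card ι) = Fk K := by
  have h := Fk_nonneg hK
  unfold isoConst
  change (Fk K ^ (1 / (2 * (Fintype.card ι : ℝ)))) ^ (2 * Fintype.card ι) = Fk K
  rw [← Real.rpow_natCast, ← Real.rpow_mul h]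
  push_cast
  rw [one_div_mul_cancel (by positivity), Real.rpow_one]

theorem iso_nonneg [DecidableEq ι] {K : Set (ι → ℝ)} (hK : IsBody K) : 0 ≤ isoConst K :=
  Real.rpow_nonneg (Fk_nonneg hK) _

theorem std_body (n : ℕ) : IsBody (stdSimp n) := gs_body (ι := Fin n)

theorem std_pow {n : ℕ} (hn : 0 < n) : isoConst (stdSimp n) ^ (2 * n) = s n := by
  have := iso_pow (std_body n) (by simpa using hn)
  simpa [Fk_simplex] using this

theorem le_iff [DecidableEq ι] {K : Set (ι → ℝ)} (hK : IsBody K) {n : ℕ} (hn : 0 < n)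
    (hc : Fintype.card ι = n) {c : ℝ} (h0 : 0 ≤ c) :
    isoConst K ≤ c * isoConst (stdSimp n) ↔ Fk K ≤ c ^ (2 * n) * s n := by
  rw [← std_pow hn, ← mul_pow, ← iso_pow hK (by omega), hc]
  exact (pow_le_pow_iff_left₀ (iso_nonneg hK) (mul_nonneg h0 (iso_nonneg (std_body n)))
    (by omega)).symm

theorem le_iff_one [DecidableEq ι] {K : Set (ι → ℝ)} (hK : IsBody K) {n : ℕ} (hn : 0 < n)
    (hc : Fintype.card ι = n) : isoConst K ≤ isoConst (stdSimp n) ↔ Fk K ≤ s n := by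
  have := le_iff hK hn hc zero_le_one
  simpa using this

theorem lt_iff_one [DecidableEq ι] {K : Set (ι → ℝ)} (hK : IsBody K) {n : ℕ} (hn : 0 < n)
    (hc : Fintype.card ι = n) : isoConst K < isoConst (stdSimp n) ↔ Fk K < s n := by
  rw [← std_pow hn, ← iso_pow hK (by omega), hc]
  exact (pow_lt_pow_iff_left₀ (iso_nonneg hK) (iso_nonneg (std_body n))
    (by omega)).symm

/-- elementary: `x^r ≤ y^(r+1)` for unboundedly many `r`, `y ≥ 1`, implies `x ≤ y` -/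
theorem elem {x y : ℝ} (hy : 1 ≤ y) (h : ∀ r0 : ℕ, ∃ r, r0 ≤ r ∧ x ^ r ≤ y ^ (r + 1)) : x ≤ y := by
  by_contra hxy
  push_neg at hxy
  have hy0 : 0 < y := by linarith
  have hq : 1 < x / y := (one_lt_div hy0).2 hxy
  obtain ⟨r0, hr0⟩ := pow_unbounded_of_one_lt y hq
  obtain ⟨r, hr, h2⟩ := h r0
  have h3 : (x / y) ^ r0 ≤ (x / y) ^ r := pow_le_pow_right₀ hq.le hr
  have h4 : (x / y) ^ r ≤ y := by
    rw [div_pow, div_le_iff₀ (by positivity)]
    calc x ^ r ≤ y ^ (r + 1) := h2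
      _ = y * y ^ r := by rw [pow_succ, mul_comm]
  linarith

/-- key step of (A) -/
theorem partA_eps {Λ : ℝ} (hΛ : 1 ≤ Λ)
    (h : ∀ N0 : ℕ, ∃ N, N0 ≤ N ∧ ∀ K : Set (Fin N → ℝ), IsBody K →
      isoConst K ≤ Λ * isoConst (stdSimp N))
    {n : ℕ} (hn : 0 < n) {K : Set (Fin n → ℝ)} (hK : IsBody K) :
    Fk K / s n ≤ Λ ^ (2 * (n + 1)) := by
  have hs := s_pos n
  apply elem (one_le_pow₀ hΛ)
  intro r0
  obtain ⟨N, hN, hb⟩ := h ((r0 + 1) * (n + 1))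
  have hnN : n ≤ N := by nlinarith
  have hN0 : 0 < N := by omega
  obtain ⟨J, hJ, e⟩ := all_dims hK N hnN
  refine ⟨(N + 1) / (n + 1), ?_, ?_⟩
  · rw [Nat.le_div_iff_mul_le (by omega)]
    nlinarith
  · rw [← e]
    have h1 := (le_iff hJ hN0 (by simp) (by linarith)).1 (hb J hJ)
    have hsN := s_pos N
    rw [div_le_iff₀ hsN]
    refine h1.trans ?_
    apply mul_le_mul_of_nonneg_right _ hsN.le
    rw [← pow_mul]
    apply pow_le_pow_right₀ hΛ
    have h2 : N + 1 < (n + 1) * ((N + 1) / (n + 1) + 1) := Nat.lt_mul_div_succ _ (by omega)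
    nlinarith

theorem partA {Λ : ℝ} (hΛ : 1 ≤ Λ)
    (h : ∀ ε : ℝ, 0 < ε → ∀ N0 : ℕ, ∃ N, N0 ≤ N ∧ ∀ K : Set (Fin N → ℝ), IsBody K →
      isoConst K ≤ (Λ + ε) * isoConst (stdSimp N))
    {n : ℕ} (hn : 0 < n) {K : Set (Fin n → ℝ)} (hK : IsBody K) :
    isoConst K ≤ Λ ^ (((n : ℝ) + 1) / n) * isoConst (stdSimp n) := by
  have h1 : ∀ ε : ℝ, 0 < ε → Fk K / s n ≤ (Λ + ε) ^ (2 * (n + 1)) := fun ε hε =>
    partA_eps (by linarith) (h ε hε) hn hK
  have h2 : Fk K / s n ≤ Λ ^ (2 * (n + 1)) := by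
    have ht : Filter.Tendsto (fun ε : ℝ => (Λ + ε) ^ (2 * (n + 1))) (nhdsWithin 0 (Set.Ioi 0))
        (nhds (Λ ^ (2 * (n + 1)))) := by
      have hc : Continuous (fun ε : ℝ => (Λ + ε) ^ (2 * (n + 1))) := by fun_prop
      have := hc.tendsto 0
      simp only [add_zero] at this
      exact this.mono_left nhdsWithin_le_nhds
    apply ge_of_tendsto ht
    filter_upwards [self_mem_nhdsWithin] with ε hε
    exact h1 ε hε
  have hL0 : (0:ℝ) ≤ Λ := by linarith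
  rw [le_iff hK hn (by simp) (Real.rpow_nonneg hL0 _)]
  rw [← Real.rpow_natCast, ← Real.rpow_mul hL0]
  have e : ((n : ℝ) + 1) / n * ((2 * n : ℕ) : ℝ) = ((2 * (n + 1) : ℕ) : ℝ) := by
    have : (n : ℝ) ≠ 0 := by positivity
    push_cast
    field_simp
  rw [e, Real.rpow_natCast]
  exact (div_le_iff₀ (s_pos n)).1 h2

/-- (B) -/
theorem partB {n : ℕ} (hn : 0 < n)
    (h : ∀ K : Set (Fin (n + 1) → ℝ), IsBody K → isoConst K ≤ isoConst (stdSimp (n + 1)))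
    {K : Set (Fin n → ℝ)} (hK : IsBody K) : isoConst K ≤ isoConst (stdSimp n) := by
  obtain ⟨J, hJ, e⟩ := pyramid hK
  have h1 := (le_iff_one hJ (Nat.succ_pos n) (by simp)).1 (h J hJ)
  rw [le_iff_one hK hn (by simp)]
  have hs := s_pos n
  have hs1 := s_pos (n + 1)
  have : Fk J / s (n + 1) ≤ 1 := (div_le_one hs1).2 h1
  rw [e] at this
  exact (div_le_one hs).1 this

theorem Join_eq (K : Set (ι → ℝ)) (L : Set (κ → ℝ)) : Join K L = join K L := by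
  ext z
  rw [mem_join]
  constructor
  · rintro ⟨h0, h1, ⟨x, hx, hxe⟩, ⟨y, hy, hye⟩⟩
    refine ⟨⟨h0, h1⟩, ⟨x, hx, ?_⟩, ⟨y, hy, ?_⟩⟩
    · ext i; simp [hxe]
    · ext j; simp [hye]
  · rintro ⟨⟨h0, h1⟩, ⟨x, hx, hxe⟩, ⟨y, hy, hye⟩⟩
    refine ⟨h0, h1, ⟨x, hx, fun i => ?_⟩, ⟨y, hy, fun j => ?_⟩⟩
    · have := congrFun hxe i; simpa using this.symm
    · have := congrFun hye j; simpa using this.symm

end Vale.Agent.P254j
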