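import Vale.Agent.P254j.Geom

open MeasureTheory Set
open scoped Pointwise

namespace Vale.Agent.P254j

variable {ι κ : Type} [Fintype ι] [Fintype κ]

theorem vol_pos {K : Set (ι → ℝ)} (hK : IsBody K) : 0 < vol K := by
  unfold vol
  rw [ENNReal.toReal_pos_iff]
  exact ⟨Measure.measure_pos_of_nonempty_interior _ hK.2.2, hK.2.1.measure_lt_top⟩

theorem integral_one (K : Set (ι → ℝ)) : ∫ _ in K, (1:ℝ) = vol K := by
  simp [vol, Measure.real]

theorem real_vol (K : Set (ι → ℝ)) : volume.real K = vol K := rfl

/-- beta numbers -/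
noncomputable def bb (a b : ℕ) : ℝ := (a.factorial * b.factorial : ℝ) / (a + b + 1).factorial

theorem bb_pos (a b : ℕ) : 0 < bb a b := by unfold bb; positivity

theorem bb_succ_right (a b : ℕ) : bb a (b + 1) = bb a b * ((b + 1) / (a + b + 2)) := by
  unfold bb
  have e : a + (b + 1) + 1 = (a + b + 1) + 1 := by ring
  rw [e, Nat.factorial_succ (a + b + 1), Nat.factorial_succ b]
  have hb : ((a + b + 1).factorial : ℝ) ≠ 0 := by exact_mod_cast (a + b + 1).factorial_ne_zero
  push_cast
  field_simp
  ring

theorem bb_succ_left (a b : ℕ) : bb (a + 1) b = bb a b * ((a + 1) / (a + b + 2)) := by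
  unfold bb
  have e : a + 1 + b + 1 = (a + b + 1) + 1 := by ring
  rw [e, Nat.factorial_succ (a + b + 1), Nat.factorial_succ a]
  have hb : ((a + b + 1).factorial : ℝ) ≠ 0 := by exact_mod_cast (a + b + 1).factorial_ne_zero
  push_cast
  field_simp
  ring

theorem int_bb (a b : ℕ) : ∫ t in (0:ℝ)..1, (1 - t) ^ a * t ^ b = bb a b := beta_nat a b

theorem int_k2 (m n : ℕ) (τ : ℝ) :
    ∫ t in (0:ℝ)..1, (t - τ) ^ 2 * ((1 - t) ^ m * t ^ n) =
      bb m (n + 2) - 2 * τ * bb m (n + 1) + τ ^ 2 * bb m n := by
  have h : ∀ t : ℝ, (t - τ) ^ 2 * ((1 - t) ^ m * t ^ n) =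
      ((1 - t) ^ m * t ^ (n + 2) - 2 * τ * ((1 - t) ^ m * t ^ (n + 1))) +
        τ ^ 2 * ((1 - t) ^ m * t ^ n) := by
    intro t; ring
  simp only [h]
  rw [intervalIntegral.integral_add (Continuous.intervalIntegrable (by fun_prop) _ _)
      (Continuous.intervalIntegrable (by fun_prop) _ _),
    intervalIntegral.integral_sub (Continuous.intervalIntegrable (by fun_prop) _ _)
      (Continuous.intervalIntegrable (by fun_prop) _ _),
    intervalIntegral.integral_const_mul, intervalIntegral.integral_const_mul,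
    int_bb, int_bb, int_bb]

section
variable {K : Set (ι → ℝ)} {L : Set (κ → ℝ)}

theorem m_k (hK : IsBody K) (hL : IsBody L) {k : ℝ → ℝ} (hk : Continuous k) :
    ∫ z in join K L, k (z (Sum.inl ())) =
      (∫ t in (0:ℝ)..1, k t * ((1 - t) ^ Fintype.card ι * t ^ Fintype.card κ)) *
        (vol K * vol L) := by
  have := integral_join hK.2.1 hL.2.1 hk (g := fun _ => 1) (h := fun _ => 1) continuous_const
    continuous_const (p := 0) (q := 0) (by simp) (by simp)
  simpa [real_vol] using this

theorem m_a (hK : IsBody K) (hL : IsBody L) {k : ℝ → ℝ} (hk : Continuous k) (i : ι)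
    (hc : ∫ x in K, x i = 0) :
    ∫ z in join K L, k (z (Sum.inl ())) * z (Sum.inr (Sum.inl i)) = 0 := by
  have := integral_join hK.2.1 hL.2.1 hk (g := fun x => x i) (h := fun _ => 1) (by fun_prop)
    continuous_const (p := 1) (q := 0) (by simp) (by simp)
  simpa [hc] using this

theorem m_b (hK : IsBody K) (hL : IsBody L) {k : ℝ → ℝ} (hk : Continuous k) (j : κ)
    (hc : ∫ x in L, x j = 0) :
    ∫ z in join K L, k (z (Sum.inl ())) * z (Sum.inr (Sum.inr j)) = 0 := by
  have := integral_join hK.2.1 hL.2.1 hk (g := fun _ => 1) (h := fun y => y j) continuous_const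
    (by fun_prop) (p := 0) (q := 1) (by simp) (by simp)
  simpa [hc] using this

theorem m_aa (hK : IsBody K) (hL : IsBody L) (i i' : ι) :
    ∫ z in join K L, z (Sum.inr (Sum.inl i)) * z (Sum.inr (Sum.inl i')) =
      bb (Fintype.card ι + 2) (Fintype.card κ) * ((∫ x in K, x i * x i') * vol L) := by
  have := integral_join hK.2.1 hL.2.1 (k := fun _ => 1) continuous_const
    (g := fun x => x i * x i') (h := fun _ => 1) (by fun_prop)
    continuous_const (p := 2) (q := 0) (by intro c x; simp; ring) (by simp)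
  simpa [real_vol, int_bb] using this

theorem m_bb (hK : IsBody K) (hL : IsBody L) (j j' : κ) :
    ∫ z in join K L, z (Sum.inr (Sum.inr j)) * z (Sum.inr (Sum.inr j')) =
      bb (Fintype.card ι) (Fintype.card κ + 2) * (vol K * ∫ y in L, y j * y j') := by
  have := integral_join hK.2.1 hL.2.1 (k := fun _ => 1) continuous_const
    (g := fun _ => 1) (h := fun y => y j * y j') continuous_const (by fun_prop)
    (p := 0) (q := 2) (by simp) (by intro c x; simp; ring)
  simpa [real_vol, int_bb] using this

theorem m_ab (hK : IsBody K) (hL : IsBody L) (i : ι) (j : κ) (hc : ∫ x in K, x i = 0) :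
    ∫ z in join K L, z (Sum.inr (Sum.inl i)) * z (Sum.inr (Sum.inr j)) = 0 := by
  have := integral_join hK.2.1 hL.2.1 (k := fun _ => 1) continuous_const
    (g := fun x => x i) (h := fun y => y j) (by fun_prop) (by fun_prop)
    (p := 1) (q := 1) (by simp) (by simp)
  simpa [hc] using this

theorem vol_join (hK : IsBody K) (hL : IsBody L) :
    vol (join K L) = bb (Fintype.card ι) (Fintype.card κ) * (vol K * vol L) := by
  have := m_k hK hL (k := fun _ => 1) continuous_const
  simpa [real_vol, int_bb] using this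

/-- mean of `t` -/
noncomputable def tau (m n : ℕ) : ℝ := (n + 1) / (m + n + 2)
noncomputable def gam (m n : ℕ) : ℝ := (n + 1) * (m + 1) / ((m + n + 2) ^ 2 * (m + n + 3))
noncomputable def alp (m n : ℕ) : ℝ := (m + 1) * (m + 2) / ((m + n + 2) * (m + n + 3))

theorem bar_join_t (hK : IsBody K) (hL : IsBody L) :
    bar (join K L) (Sum.inl ()) = tau (Fintype.card ι) (Fintype.card κ) := by
  have h := m_k hK hL (k := fun t => t) continuous_id
  have h2 : ∀ t : ℝ, t * ((1 - t) ^ Fintype.card ι * t ^ Fintype.card κ) =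
      (1 - t) ^ Fintype.card ι * t ^ (Fintype.card κ + 1) := by intro t; ring
  simp only [h2, int_bb] at h
  have hV := vol_pos hK
  have hW := vol_pos hL
  have hb := bb_pos (Fintype.card ι) (Fintype.card κ)
  unfold bar
  rw [h, vol_join hK hL, bb_succ_right, tau]
  field_simp

theorem bar_join_a (hK : IsBody K) (hL : IsBody L) (i : ι) (hc : ∫ x in K, x i = 0) :
    bar (join K L) (Sum.inr (Sum.inl i)) = 0 := by
  have h := m_a hK hL (k := fun _ => 1) continuous_const i hc
  simp only [one_mul] at h
  unfold bar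
  rw [h, mul_zero]

theorem bar_join_b (hK : IsBody K) (hL : IsBody L) (j : κ) (hc : ∫ x in L, x j = 0) :
    bar (join K L) (Sum.inr (Sum.inr j)) = 0 := by
  have h := m_b hK hL (k := fun _ => 1) continuous_const j hc
  simp only [one_mul] at h
  unfold bar
  rw [h, mul_zero]

theorem bar_zero {K : Set (ι → ℝ)} (i : ι) (hc : ∫ x in K, x i = 0) : bar K i = 0 := by
  unfold bar; rw [hc, mul_zero]

theorem Cov_join (hK : IsBody K) (hL : IsBody L) (cK : ∀ i, ∫ x in K, x i = 0)
    (cL : ∀ j, ∫ x in L, x j = 0) :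
    Cov (join K L) = Matrix.fromBlocks
      (Matrix.of fun _ _ => gam (Fintype.card ι) (Fintype.card κ)) 0 0
      (Matrix.fromBlocks (alp (Fintype.card ι) (Fintype.card κ) • Cov K) 0 0
        (alp (Fintype.card κ) (Fintype.card ι) • Cov L)) := by
  have hV := vol_pos hK
  have hW := vol_pos hL
  have hb := bb_pos (Fintype.card ι) (Fintype.card κ)
  have hm : (0:ℝ) ≤ Fintype.card ι := Nat.cast_nonneg _
  have hn : (0:ℝ) ≤ Fintype.card κ := Nat.cast_nonneg _
  ext (u | i | j) (u' | i' | j')
  · simp only [Cov, Matrix.of_apply, Matrix.fromBlocks_apply₁₁]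
    rw [bar_join_t hK hL]
    have h := m_k hK hL (k := fun t => (t - tau (Fintype.card ι) (Fintype.card κ)) ^ 2)
      (by fun_prop)
    simp only [int_k2] at h
    simp only [← pow_two]
    rw [h, vol_join hK hL, bb_succ_right (b := Fintype.card κ + 1), bb_succ_right, tau, gam]
    push_cast
    field_simp
    ring
  · simp only [Cov, Matrix.of_apply, Matrix.fromBlocks_apply₁₂, Matrix.zero_apply]
    rw [bar_join_t hK hL, bar_join_a hK hL i' (cK i')]
    have h := m_a hK hL (k := fun t => (t - tau (Fintype.card ι) (Fintype.card κ)))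
      (by fun_prop) i' (cK i')
    simp only [sub_zero]
    rw [h, mul_zero]
  · simp only [Cov, Matrix.of_apply, Matrix.fromBlocks_apply₁₂, Matrix.zero_apply]
    rw [bar_join_t hK hL, bar_join_b hK hL j' (cL j')]
    have h := m_b hK hL (k := fun t => (t - tau (Fintype.card ι) (Fintype.card κ)))
      (by fun_prop) j' (cL j')
    simp only [sub_zero]
    rw [h, mul_zero]
  · simp only [Cov, Matrix.of_apply, Matrix.fromBlocks_apply₂₁, Matrix.zero_apply]
    rw [bar_join_t hK hL, bar_join_a hK hL i (cK i)]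
    have h := m_a hK hL (k := fun t => (t - tau (Fintype.card ι) (Fintype.card κ)))
      (by fun_prop) i (cK i)
    simp only [sub_zero]
    simp only [mul_comm] at h ⊢
    rw [h, mul_zero]
  · simp only [Cov, Matrix.of_apply, Matrix.fromBlocks_apply₂₂, Matrix.fromBlocks_apply₁₁,
      Matrix.smul_apply, smul_eq_mul]
    rw [bar_join_a hK hL i (cK i), bar_join_a hK hL i' (cK i'), bar_zero i (cK i),
      bar_zero i' (cK i')]
    simp only [sub_zero]
    rw [m_aa hK hL i i', vol_join hK hL, bb_succ_left (a := Fintype.card ι + 1), bb_succ_left, alp]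
    push_cast
    field_simp
    ring
  · simp only [Cov, Matrix.of_apply, Matrix.fromBlocks_apply₂₂, Matrix.fromBlocks_apply₁₂,
      Matrix.zero_apply]
    rw [bar_join_a hK hL i (cK i), bar_join_b hK hL j' (cL j')]
    simp only [sub_zero]
    rw [m_ab hK hL i j' (cK i), mul_zero]
  · simp only [Cov, Matrix.of_apply, Matrix.fromBlocks_apply₂₁, Matrix.zero_apply]
    rw [bar_join_t hK hL, bar_join_b hK hL j (cL j)]
    have h := m_b hK hL (k := fun t => (t - tau (Fintype.card ι) (Fintype.card κ)))
      (by fun_prop) j (cL j)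
    simp only [sub_zero]
    simp only [mul_comm] at h ⊢
    rw [h, mul_zero]
  · simp only [Cov, Matrix.of_apply, Matrix.fromBlocks_apply₂₂, Matrix.fromBlocks_apply₂₁,
      Matrix.zero_apply]
    rw [bar_join_a hK hL i' (cK i'), bar_join_b hK hL j (cL j)]
    simp only [sub_zero]
    have h := m_ab hK hL i' j (cK i')
    simp only [mul_comm] at h ⊢
    rw [h, mul_zero]
  · simp only [Cov, Matrix.of_apply, Matrix.fromBlocks_apply₂₂, Matrix.smul_apply, smul_eq_mul]
    rw [bar_join_b hK hL j (cL j), bar_join_b hK hL j' (cL j'), bar_zero j (cL j),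
      bar_zero j' (cL j')]
    simp only [sub_zero]
    rw [m_bb hK hL j j', vol_join hK hL, bb_succ_right (b := Fintype.card κ + 1), bb_succ_right, alp]
    push_cast
    field_simp
    ring

end

end Vale.Agent.P254j
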