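import Vale.Agent.P254.SimplexImage

/-!
P254: Cartesian products and joins of convex bodies.
-/

open Vale.Agent.P254

namespace Vale.Agent.P254j

/-- A convex body: compact, convex, nonempty interior. -/
def IsConvexBody {n : ℕ} (K : Set (Fin n → ℝ)) : Prop :=
  Convex ℝ K ∧ IsCompact K ∧ (interior K).Nonempty

/-- The Cartesian product `K × L ⊆ ℝ^(m+n)`. -/
def prodBody {m n : ℕ} (K : Set (Fin m → ℝ)) (L : Set (Fin n → ℝ)) : Set (Fin (m + n) → ℝ) :=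
  {z | (fun i => z (Fin.castAdd n i)) ∈ K ∧ (fun j => z (Fin.natAdd m j)) ∈ L}

/-- The join of `K ⊆ ℝ^m` and `L ⊆ ℝ^n`: all points `((1 - t) x, t y, t) ∈ ℝ^(m+n+1)` with
`0 ≤ t ≤ 1`, `x ∈ K`, `y ∈ L`, i.e. the convex hull of `K × 0 × {0}` and `0 × L × {1}`. -/
def joinBody {m n : ℕ} (K : Set (Fin m → ℝ)) (L : Set (Fin n → ℝ)) :
    Set (Fin (m + n + 1) → ℝ) :=
  {z | 0 ≤ z (Fin.last (m + n)) ∧ z (Fin.last (m + n)) ≤ 1 ∧
    (∃ x ∈ K, ∀ i, z (Fin.castSucc (Fin.castAdd n i)) = (1 - z (Fin.last (m + n))) * x i) ∧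
    (∃ y ∈ L, ∀ j, z (Fin.castSucc (Fin.natAdd m j)) = z (Fin.last (m + n)) * y j)}

/-- The free sum of `K ⊆ ℝ^m` and `L ⊆ ℝ^n`: all points `((1 - t) x, t y) ∈ ℝ^(m+n)` with
`0 ≤ t ≤ 1`, `x ∈ K`, `y ∈ L`. -/
def freeSum {m n : ℕ} (K : Set (Fin m → ℝ)) (L : Set (Fin n → ℝ)) : Set (Fin (m + n) → ℝ) :=
  {z | ∃ t : ℝ, 0 ≤ t ∧ t ≤ 1 ∧ (∃ x ∈ K, ∀ i, z (Fin.castAdd n i) = (1 - t) * x i) ∧
    (∃ y ∈ L, ∀ j, z (Fin.natAdd m j) = t * y j)}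

/-- `K` is invariant under all sign changes and permutations of the coordinates. -/
def OneSym {n : ℕ} (K : Set (Fin n → ℝ)) : Prop :=
  (∀ s : Fin n → ℤˣ, ∀ x ∈ K, (fun i => ((s i : ℤ) : ℝ) * x i) ∈ K) ∧
  (∀ π : Equiv.Perm (Fin n), ∀ x ∈ K, (x ∘ π) ∈ K)

/-- The class generated by simplices (dimension `≥ 1`), 1-symmetric bodies and Musielak-Orlicz
balls (dimension `≥ 2`) and bodies of revolution (dimension `≥ 3`) under invertible affine maps,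
Cartesian products, joins and free sums of bodies with centroid `0`. -/
inductive Cls : {n : ℕ} → Set (Fin n → ℝ) → Prop
  | simplex {n : ℕ} {S : Set (Fin n → ℝ)} : 1 ≤ n → IsSimplex S → Cls S
  | oneSym {n : ℕ} {K : Set (Fin n → ℝ)} : 2 ≤ n → IsConvexBody K → OneSym K → Cls K
  | orlicz {n : ℕ} (φ : Fin n → ℝ → ℝ) : 2 ≤ n → (∀ i, ContinuousOn (φ i) (Set.Ici 0)) →
      (∀ i, ConvexOn ℝ (Set.Ici 0) (φ i)) → (∀ i, MonotoneOn (φ i) (Set.Ici 0)) →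
      (∀ i, φ i 0 = 0) → (∀ i, ∃ x, 0 < x ∧ 0 < φ i x) →
      Cls {x : Fin n → ℝ | ∑ i, φ i |x i| ≤ 1}
  | revolution {m : ℕ} {K : Set (Fin (m + 1) → ℝ)} : 2 ≤ m → IsConvexBody K →
      (∀ x ∈ K, ∀ y : Fin (m + 1) → ℝ, y 0 = x 0 →
        ∑ i : Fin m, y i.succ ^ 2 = ∑ i : Fin m, x i.succ ^ 2 → y ∈ K) → Cls K
  | affine {n : ℕ} {K : Set (Fin n → ℝ)} (T : (Fin n → ℝ) ≃ᵃ[ℝ] (Fin n → ℝ)) :
      Cls K → Cls (T '' K)
  | prod {m n : ℕ} {K : Set (Fin m → ℝ)} {L : Set (Fin n → ℝ)} :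
      Cls K → Cls L → Cls (prodBody K L)
  | join {m n : ℕ} {K : Set (Fin m → ℝ)} {L : Set (Fin n → ℝ)} :
      Cls K → Cls L → Cls (joinBody K L)
  | freeSum {m n : ℕ} {K : Set (Fin m → ℝ)} {L : Set (Fin n → ℝ)} :
      Cls K → Cls L → (∀ i, centroid K i = 0) → (∀ j, centroid L j = 0) → Cls (freeSum K L)

end Vale.Agent.P254j
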