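import Vale.Agent.P254j.Inv

open MeasureTheory Set
open scoped Pointwise

namespace Vale.Agent.P254j

/-- joins exist in `ℝ^(m+n+1)` and multiply the normalised functional -/
theorem join_exists {m n : ℕ} {K : Set (Fin m → ℝ)} {L : Set (Fin n → ℝ)} (hK : IsBody K)
    (hL : IsBody L) : ∃ J : Set (Fin (m + n + 1) → ℝ), IsBody J ∧
      Fk J / s (m + n + 1) = (Fk K / s m) * (Fk L / s n) := by
  obtain ⟨K', hK', eK, cK⟩ := centre hK
  obtain ⟨L', hL', eL, cL⟩ := centre hL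
  have hc : Fintype.card (Unit ⊕ (Fin m ⊕ Fin n)) = m + n + 1 := by
    simp; ring
  obtain ⟨J, hJ, eJ⟩ := reindex (Fintype.equivFinOfCardEq hc) (join_body hK' hL')
  refine ⟨J, hJ, ?_⟩
  have h := Fk_join hK' hL' cK cL
  simp only [Fintype.card_fin] at h
  rw [eJ, h, eK, eL]

theorem point_body : IsBody (Set.univ : Set (Fin 0 → ℝ)) :=
  ⟨convex_univ, isCompact_univ, by simp⟩

theorem Fk_point : Fk (Set.univ : Set (Fin 0 → ℝ)) = 1 := by
  have h : vol (Set.univ : Set (Fin 0 → ℝ)) = 1 := by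
    unfold vol
    rw [volume_pi]
    simp
  unfold Fk
  rw [h]
  simp

theorem s_zero : s 0 = 1 := by unfold s; simp

/-- pyramids -/
theorem pyramid {n : ℕ} {K : Set (Fin n → ℝ)} (hK : IsBody K) :
    ∃ J : Set (Fin (n + 1) → ℝ), IsBody J ∧ Fk J / s (n + 1) = Fk K / s n := by
  obtain ⟨J, hJ, e⟩ := join_exists hK point_body
  refine ⟨J, hJ, ?_⟩
  rw [Fk_point, s_zero] at e
  simpa using e

theorem pyramids {n : ℕ} {K : Set (Fin n → ℝ)} (hK : IsBody K) (k : ℕ) :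
    ∃ J : Set (Fin (n + k) → ℝ), IsBody J ∧ Fk J / s (n + k) = Fk K / s n := by
  induction k with
  | zero => exact ⟨K, hK, rfl⟩
  | succ k ih =>
    obtain ⟨J, hJ, e⟩ := ih
    obtain ⟨J2, hJ2, e2⟩ := pyramid hJ
    exact ⟨J2, hJ2, e2.trans e⟩

theorem powers {n : ℕ} {K : Set (Fin n → ℝ)} (hK : IsBody K) (r : ℕ) :
    ∃ J : Set (Fin (r * (n + 1) + n) → ℝ), IsBody J ∧
      Fk J / s (r * (n + 1) + n) = (Fk K / s n) ^ (r + 1) := by
  induction r with
  | zero =>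
    have : 0 * (n + 1) + n = n := by ring
    rw [this]
    exact ⟨K, hK, by simp⟩
  | succ r ih =>
    obtain ⟨J, hJ, e⟩ := ih
    obtain ⟨J2, hJ2, e2⟩ := join_exists hJ hK
    have : (r + 1) * (n + 1) + n = r * (n + 1) + n + n + 1 := by ring
    rw [this]
    refine ⟨J2, hJ2, ?_⟩
    rw [e2, e, pow_succ (Fk K / s n) (r + 1)]

/-- in every dimension `N ≥ n` there is a body with ratio `ρ^⌊(N+1)/(n+1)⌋` -/
theorem all_dims {n : ℕ} {K : Set (Fin n → ℝ)} (hK : IsBody K) (N : ℕ) (hN : n ≤ N) :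
    ∃ J : Set (Fin N → ℝ), IsBody J ∧
      Fk J / s N = (Fk K / s n) ^ ((N + 1) / (n + 1)) := by
  obtain ⟨r, hr⟩ : ∃ r, (N + 1) / (n + 1) = r + 1 := by
    have : 1 ≤ (N + 1) / (n + 1) := (Nat.le_div_iff_mul_le (by omega)).2 (by omega)
    exact ⟨(N + 1) / (n + 1) - 1, by omega⟩
  obtain ⟨J, hJ, e⟩ := powers hK r
  have h1 : (r + 1) * (n + 1) ≤ N + 1 := by
    rw [← hr]; exact Nat.div_mul_le_self _ _
  have h2 : r * (n + 1) + n + (N + 1 - (r + 1) * (n + 1)) = N := by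
    have : (r + 1) * (n + 1) = r * (n + 1) + n + 1 := by ring
    omega
  have h3 := pyramids hJ (N + 1 - (r + 1) * (n + 1))
  rw [h2] at h3
  obtain ⟨J2, hJ2, e2⟩ := h3
  exact ⟨J2, hJ2, by rw [e2, e, hr]⟩

end Vale.Agent.P254j
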