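import Vale.Agent.P254j.Main

open MeasureTheory Set
open scoped Pointwise

namespace Vale.Agent.P254j

variable {ι κ : Type} [Fintype ι] [Fintype κ]

def Ξ : (ι ⊕ κ → ℝ) ≃ᵐ (ι → ℝ) × (κ → ℝ) := MeasurableEquiv.sumPiEquivProdPi (fun _ => ℝ)

theorem Ξ_mp : MeasurePreserving (Ξ : (ι ⊕ κ → ℝ) ≃ᵐ (ι → ℝ) × (κ → ℝ)) :=
  volume_measurePreserving_sumPiEquivProdPi (fun _ : ι ⊕ κ => ℝ)

/-- the homeomorphism -/
def H2 : (ι ⊕ κ → ℝ) ≃ₜ (ι → ℝ) × (κ → ℝ) where
  toFun z := ((fun i => z (Sum.inl i)), fun j => z (Sum.inr j))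
  invFun w := Sum.elim w.1 w.2
  left_inv z := by ext (i | j) <;> rfl
  right_inv w := rfl
  continuous_toFun := by fun_prop
  continuous_invFun := by
    apply continuous_pi
    rintro (i | j) <;> simp only [Sum.elim_inl, Sum.elim_inr] <;> fun_prop

theorem Prd_body {K : Set (ι → ℝ)} {L : Set (κ → ℝ)} (hK : IsBody K) (hL : IsBody L) :
    IsBody (Prd K L) := by
  refine ⟨?_, ?_, ?_⟩
  · intro z hz z' hz' u v hu hv huv
    exact ⟨hK.1 hz.1 hz'.1 hu hv huv, hL.1 hz.2 hz'.2 hu hv huv⟩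
  · exact (H2 (ι := ι) (κ := κ)).isCompact_preimage.2 (hK.2.1.prod hL.2.1)
  · have h := (H2 (ι := ι) (κ := κ)).preimage_interior (K ×ˢ L)
    have e : Prd K L = H2 ⁻¹' (K ×ˢ L) := rfl
    rw [e, ← h, interior_prod_eq]
    obtain ⟨x, hx⟩ := hK.2.2
    obtain ⟨y, hy⟩ := hL.2.2
    exact ⟨H2.symm (x, y), by simpa using ⟨hx, hy⟩⟩

theorem integral_Prd (K : Set (ι → ℝ)) (L : Set (κ → ℝ)) (g : (ι → ℝ) → ℝ) (h : (κ → ℝ) → ℝ) :
    ∫ z in Prd K L, g (fun i => z (Sum.inl i)) * h (fun j => z (Sum.inr j)) =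
      (∫ x in K, g x) * ∫ y in L, h y := by
  have e := Ξ_mp.setIntegral_preimage_emb (Ξ (ι := ι) (κ := κ)).measurableEmbedding
    (fun w : (ι → ℝ) × (κ → ℝ) => g w.1 * h w.2) (K ×ˢ L)
  refine Eq.trans e ?_
  rw [show (volume : Measure ((ι → ℝ) × (κ → ℝ))) = (volume : Measure (ι → ℝ)).prod
      (volume : Measure (κ → ℝ)) from rfl]
  exact setIntegral_prod_mul g h K L

theorem vol_Prd (K : Set (ι → ℝ)) (L : Set (κ → ℝ)) : vol (Prd K L) = vol K * vol L := by
  have := integral_Prd K L (fun _ => 1) (fun _ => 1)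
  simpa [real_vol] using this

theorem centred {K : Set (ι → ℝ)} (hK : IsBody K) (i : ι) : ∫ x in K, (x i - bar K i) = 0 := by
  have hV := vol_pos hK
  rw [integral_sub (intK hK (by fun_prop)) (intK hK (by fun_prop))]
  have h2 : ∫ _ in K, bar K i = bar K i * vol K := by
    simp [vol, Measure.real, mul_comm]
  rw [h2]
  unfold bar
  field_simp
  ring

theorem bar_Prd_l {K : Set (ι → ℝ)} {L : Set (κ → ℝ)} (hK : IsBody K) (hL : IsBody L) (i : ι) :
    bar (Prd K L) (Sum.inl i) = bar K i := by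
  have hV := vol_pos hK
  have hW := vol_pos hL
  have := integral_Prd K L (fun x => x i) (fun _ => 1)
  simp only [mul_one, integral_one] at this
  unfold bar
  rw [this, vol_Prd]
  field_simp

theorem bar_Prd_r {K : Set (ι → ℝ)} {L : Set (κ → ℝ)} (hK : IsBody K) (hL : IsBody L) (j : κ) :
    bar (Prd K L) (Sum.inr j) = bar L j := by
  have hV := vol_pos hK
  have hW := vol_pos hL
  have := integral_Prd K L (fun _ => 1) (fun y => y j)
  simp only [one_mul, integral_one] at this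
  unfold bar
  rw [this, vol_Prd]
  field_simp

theorem Cov_Prd {K : Set (ι → ℝ)} {L : Set (κ → ℝ)} (hK : IsBody K) (hL : IsBody L) :
    Cov (Prd K L) = Matrix.fromBlocks (Cov K) 0 0 (Cov L) := by
  have hV := vol_pos hK
  have hW := vol_pos hL
  ext (i | j) (i' | j')
  · simp only [Cov, Matrix.of_apply, Matrix.fromBlocks_apply₁₁]
    have := integral_Prd K L (fun x => (x i - bar K i) * (x i' - bar K i')) (fun _ => 1)
    simp only [mul_one, integral_one] at this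
    rw [bar_Prd_l hK hL, bar_Prd_l hK hL, this, vol_Prd]
    field_simp
  · simp only [Cov, Matrix.of_apply, Matrix.fromBlocks_apply₁₂, Matrix.zero_apply]
    have := integral_Prd K L (fun x => (x i - bar K i)) (fun y => y j' - bar L j')
    rw [bar_Prd_l hK hL, bar_Prd_r hK hL, this, centred hK, zero_mul, mul_zero]
  · simp only [Cov, Matrix.of_apply, Matrix.fromBlocks_apply₂₁, Matrix.zero_apply]
    have := integral_Prd K L (fun x => (x i' - bar K i')) (fun y => y j - bar L j)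
    rw [bar_Prd_l hK hL, bar_Prd_r hK hL]
    simp only [mul_comm] at this ⊢
    rw [this, centred hK, zero_mul, mul_zero]
  · simp only [Cov, Matrix.of_apply, Matrix.fromBlocks_apply₂₂]
    have := integral_Prd K L (fun _ => 1) (fun y => (y j - bar L j) * (y j' - bar L j'))
    simp only [one_mul, integral_one] at this
    rw [bar_Prd_r hK hL, bar_Prd_r hK hL, this, vol_Prd]
    field_simp

theorem Fk_Prd [DecidableEq ι] [DecidableEq κ] {K : Set (ι → ℝ)} {L : Set (κ → ℝ)}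
    (hK : IsBody K) (hL : IsBody L) : Fk (Prd K L) = Fk K * Fk L := by
  unfold Fk
  rw [Cov_Prd hK hL, Matrix.det_fromBlocks_zero₂₁, vol_Prd]
  ring

/-- polynomial inequality -/
theorem poly_ineq (x : ℝ) (hx : 2 ≤ x) :
    (x - 1) * (x + 1) ^ 3 / x ^ 4 <
      1 + x * (2 / ((x - 1) * (x + 2))) + x * (x - 1) / 2 * (2 / ((x - 1) * (x + 2))) ^ 2 := by
  have h1 : 0 < x - 1 := by linarith
  have h2 : 0 < x + 2 := by linarith
  have h3 : 0 < x := by linarith
  have e : 1 + x * (2 / ((x - 1) * (x + 2))) + x * (x - 1) / 2 * (2 / ((x - 1) * (x + 2))) ^ 2 -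
      (x - 1) * (x + 1) ^ 3 / x ^ 4 =
      ((x ^ 4 * ((x - 1) * (x + 2) ^ 2 + 2 * x * (x + 2) + 2 * x)) -
        (x - 1) ^ 2 * (x + 1) ^ 3 * (x + 2) ^ 2) / (x ^ 4 * ((x - 1) * (x + 2) ^ 2)) := by
    field_simp
  rw [← sub_pos, e]
  apply div_pos _ (by positivity)
  obtain ⟨y, hy, rfl⟩ : ∃ y : ℝ, 0 ≤ y ∧ x = y + 2 := ⟨x - 2, by linarith, by ring⟩
  ring_nf
  positivity

/-- second order Bernoulli -/
theorem bern2 (n : ℕ) (a : ℝ) (ha : 0 ≤ a) :
    1 + n * a + n * (n - 1) / 2 * a ^ 2 ≤ (1 + a) ^ n := by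
  induction n with
  | zero => simp
  | succ n ih =>
    rw [pow_succ]
    have h1 : (1 + n * a + n * (n - 1) / 2 * a ^ 2) * (1 + a) ≤ (1 + a) ^ n * (1 + a) :=
      mul_le_mul_of_nonneg_right ih (by linarith)
    refine le_trans ?_ h1
    push_cast
    have h2 : 0 ≤ (n : ℝ) * (n - 1) / 2 * a ^ 3 := by
      rcases Nat.eq_zero_or_pos n with h | h
      · simp [h]
      · have : (1:ℝ) ≤ n := by exact_mod_cast h
        have : 0 ≤ (n : ℝ) - 1 := by linarith
        positivity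
    nlinarith

/-- `s_{n+1} / s_n` -/
noncomputable def cc (n : ℕ) : ℝ := (n + 1 : ℝ) ^ (n + 3) / ((n + 2) ^ 2 * (n + 3) ^ (n + 1))

theorem s_succ (n : ℕ) : s (n + 1) = s n * cc n := by
  unfold s cc
  rw [Nat.factorial_succ]
  have e1 : (((n + 1 : ℕ) : ℝ) + 1) = (n + 2 : ℝ) := by push_cast; ring
  have e2 : (((n + 1 : ℕ) : ℝ) + 2) = (n + 3 : ℝ) := by push_cast; ring
  rw [e1, e2]
  push_cast
  have p1 : (0:ℝ) < n + 1 := by positivity
  have p2 : (0:ℝ) < n + 2 := by positivity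
  have p3 : (0:ℝ) < n + 3 := by positivity
  generalize (n + 1 : ℝ) = A at *
  generalize (n + 2 : ℝ) = B at *
  generalize (n + 3 : ℝ) = C at *
  field_simp
  ring

theorem cc_lt (n : ℕ) : cc n < cc (n + 1) := by
  unfold cc
  have e1 : (((n + 1 : ℕ) : ℝ) + 1) = (n + 2 : ℝ) := by push_cast; ring
  have e2 : (((n + 1 : ℕ) : ℝ) + 2) = (n + 3 : ℝ) := by push_cast; ring
  have e3 : (((n + 1 : ℕ) : ℝ) + 3) = (n + 4 : ℝ) := by push_cast; ring
  rw [e1, e2, e3]
  have hp := poly_ineq (n + 2) (by linarith [(Nat.cast_nonneg n : (0:ℝ) ≤ n)])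
  have p1 : (0:ℝ) < n + 1 := by positivity
  have p2 : (0:ℝ) < n + 2 := by positivity
  have p3 : (0:ℝ) < n + 3 := by positivity
  have p4 : (0:ℝ) < n + 4 := by positivity
  have hb := bern2 (n + 2) (2 / ((n + 1) * (n + 4) : ℝ)) (by positivity)
  push_cast at hb
  have e4 : (n + 2 - 1 : ℝ) = n + 1 := by ring
  have e5 : (n + 2 + 1 : ℝ) = n + 3 := by ring
  have e6 : (n + 2 + 2 : ℝ) = n + 4 := by ring
  rw [e4, e5, e6] at hp
  rw [e4] at hb
  have h := lt_of_lt_of_le hp hb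
  have e7 : (1 + 2 / ((n + 1) * (n + 4) : ℝ)) = (n + 2) * (n + 3) / ((n + 1) * (n + 4)) := by
    field_simp
    ring
  rw [e7, div_pow, mul_pow, mul_pow, div_lt_div_iff₀ (by positivity) (by positivity)] at h
  rw [div_lt_div_iff₀ (by positivity) (by positivity)]
  generalize (n + 1 : ℝ) = A at *
  generalize (n + 2 : ℝ) = B at *
  generalize (n + 3 : ℝ) = C at *
  generalize (n + 4 : ℝ) = D at *
  have h2 : A ^ (n + 3) * (C ^ 2 * D ^ (n + 1 + 1)) * C =
      A * C ^ 3 * (A ^ (n + 2) * D ^ (n + 2)) := by ring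
  have h3 : B ^ (n + 1 + 3) * (B ^ 2 * C ^ (n + 1)) * C =
      B ^ (n + 2) * C ^ (n + 2) * B ^ 4 := by ring
  have h4 : A ^ (n + 3) * (C ^ 2 * D ^ (n + 1 + 1)) * C < B ^ (n + 1 + 3) * (B ^ 2 * C ^ (n + 1)) * C := by
    rw [h2, h3]; exact h
  exact lt_of_mul_lt_mul_right h4 p3.le

theorem cc_mono : StrictMono cc := strictMono_nat_of_lt_succ cc_lt

theorem cc_pos (n : ℕ) : 0 < cc n := by unfold cc; positivity

/-- `s_m s_n ≤ s_{m+n}` -/
theorem s_mul_le (m n : ℕ) : s m * s n ≤ s (m + n) := by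
  induction n with
  | zero => rw [s_zero]; simp
  | succ n ih =>
    rw [s_succ, ← Nat.add_assoc, s_succ, ← mul_assoc]
    exact mul_le_mul ih (cc_mono.monotone (by omega)) (cc_pos _).le (s_pos _).le

/-- strict for `m, n ≥ 1` -/
theorem s_mul_lt (m n : ℕ) (hm : 0 < m) (hn : 0 < n) : s m * s n < s (m + n) := by
  obtain ⟨n, rfl⟩ : ∃ k, n = k + 1 := ⟨n - 1, by omega⟩
  rw [s_succ, ← Nat.add_assoc, s_succ, ← mul_assoc]
  exact mul_lt_mul' (s_mul_le m n) (cc_mono (by omega)) (cc_pos _).le (s_pos _)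

end Vale.Agent.P254j
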