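import Vale.Agent.P254j.Power

open MeasureTheory Set
open scoped Pointwise

namespace Vale.Agent.P254j

/-- the standard simplex in `ℝ^ι` -/
def gs (ι : Type) [Fintype ι] : Set (ι → ℝ) := {x | (∀ i, 0 ≤ x i) ∧ ∑ i, x i ≤ 1}

variable {ι κ : Type} [Fintype ι] [Fintype κ]

theorem gs_compact : IsCompact (gs ι) := by
  classical
  have hcl : IsClosed (gs ι) := by
    have : gs ι = (⋂ i, {x : ι → ℝ | 0 ≤ x i}) ∩ {x | ∑ i, x i ≤ 1} := by
      ext x; simp [gs]
    rw [this]
    exact (isClosed_iInter fun i => isClosed_le continuous_const (continuous_apply i)).inter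
      (isClosed_le (by fun_prop) continuous_const)
  apply (isCompact_univ_pi (fun _ : ι => (isCompact_Icc : IsCompact (Icc (0:ℝ) 1)))).of_isClosed_subset hcl
  intro x hx i _
  refine ⟨hx.1 i, le_trans ?_ hx.2⟩
  exact Finset.single_le_sum (f := x) (fun j _ => hx.1 j) (Finset.mem_univ i)

theorem gs_convex : Convex ℝ (gs ι) := by
  intro x hx y hy u v hu hv huv
  refine ⟨fun i => ?_, ?_⟩
  · have h1 := mul_nonneg hu (hx.1 i)
    have h2 := mul_nonneg hv (hy.1 i)
    simp only [Pi.add_apply, Pi.smul_apply, smul_eq_mul]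
    linarith
  · simp only [Pi.add_apply, Pi.smul_apply, smul_eq_mul, Finset.sum_add_distrib, ← Finset.mul_sum]
    have h1 := mul_le_mul_of_nonneg_left hx.2 hu
    have h2 := mul_le_mul_of_nonneg_left hy.2 hv
    linarith

theorem gs_interior : (interior (gs ι)).Nonempty := by
  classical
  have hopen : IsOpen ({x : ι → ℝ | (∀ i, 0 < x i) ∧ ∑ i, x i < 1}) := by
    have : {x : ι → ℝ | (∀ i, 0 < x i) ∧ ∑ i, x i < 1} =
        (⋂ i, {x : ι → ℝ | 0 < x i}) ∩ {x | ∑ i, x i < 1} := by
      ext x; simp
    rw [this]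
    exact (isOpen_iInter_of_finite fun i => isOpen_lt continuous_const (continuous_apply i)).inter
      (isOpen_lt (by fun_prop) continuous_const)
  have hsub : {x : ι → ℝ | (∀ i, 0 < x i) ∧ ∑ i, x i < 1} ⊆ gs ι :=
    fun x hx => ⟨fun i => (hx.1 i).le, hx.2.le⟩
  refine ⟨fun _ => 1 / ((Fintype.card ι : ℝ) + 1), interior_maximal hsub hopen ⟨fun i => ?_, ?_⟩⟩
  · positivity
  · simp only [Finset.sum_const, Finset.card_univ, nsmul_eq_mul]
    rw [mul_one_div, div_lt_one (by positivity)]
    linarith

theorem gs_body : IsBody (gs ι) := ⟨gs_convex, gs_compact, gs_interior⟩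

/-- the moments of the simplex -/
def Mom (ι : Type) [Fintype ι] [DecidableEq ι] : Prop :=
  vol (gs ι) = 1 / (Fintype.card ι).factorial ∧
  (∀ i : ι, ∫ x in gs ι, x i = 1 / (Fintype.card ι + 1).factorial) ∧
  (∀ i j : ι, ∫ x in gs ι, x i * x j = (if i = j then 2 else 1) / (Fintype.card ι + 2).factorial)

theorem mem_join {K : Set (ι → ℝ)} {L : Set (κ → ℝ)} (z : Unit ⊕ (ι ⊕ κ) → ℝ) :
    z ∈ join K L ↔ (z (Sum.inl ()) ∈ Icc (0:ℝ) 1 ∧
      (fun i => z (Sum.inr (Sum.inl i))) ∈ (1 - z (Sum.inl ())) • K ∧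
      (fun j => z (Sum.inr (Sum.inr j))) ∈ z (Sum.inl ()) • L) := Iff.rfl

theorem join_gs : join (gs ι) (Set.univ : Set (Fin 0 → ℝ)) = gs (Unit ⊕ (ι ⊕ Fin 0)) := by
  ext z
  rw [mem_join]
  constructor
  · rintro ⟨⟨ht0, ht1⟩, ⟨x, hx, hxe⟩, -⟩
    have hx2 : ∀ i, z (Sum.inr (Sum.inl i)) = (1 - z (Sum.inl ())) * x i := by
      intro i
      have := congrFun hxe i
      simpa using this.symm
    refine ⟨?_, ?_⟩
    · rintro (u | i | j)
      · exact ht0
      · rw [hx2]; exact mul_nonneg (by linarith) (hx.1 i)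
      · exact j.elim0
    · simp only [Fintype.sum_sum_type, Finset.univ_unique, Finset.sum_singleton, hx2,
        Finset.univ_eq_empty, Finset.sum_empty, add_zero, ← Finset.mul_sum]
      have h := mul_le_mul_of_nonneg_left hx.2 (show (0:ℝ) ≤ 1 - z (Sum.inl ()) by linarith)
      have e : z (Sum.inl default) = z (Sum.inl ()) := rfl
      rw [e]
      linarith
  · rintro ⟨h1, h2⟩
    simp only [Fintype.sum_sum_type, Finset.univ_unique, Finset.sum_singleton,
        Finset.univ_eq_empty, Finset.sum_empty, add_zero] at h2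
    have e : z (Sum.inl default) = z (Sum.inl ()) := rfl
    rw [e] at h2
    have hs : 0 ≤ ∑ i, z (Sum.inr (Sum.inl i)) := Finset.sum_nonneg fun i _ => h1 _
    refine ⟨⟨h1 _, ?_⟩, ?_, ?_⟩
    · show z (Sum.inl ()) ≤ 1
      linarith
    · show (fun i => z (Sum.inr (Sum.inl i))) ∈ (1 - z (Sum.inl ())) • gs ι
      rcases eq_or_lt_of_le (show z (Sum.inl ()) ≤ 1 by linarith) with h | h
      · refine ⟨0, ⟨by simp, by simp⟩, ?_⟩
        ext i
        have hs0 : ∑ i, z (Sum.inr (Sum.inl i)) = 0 := by linarith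
        have := (Finset.sum_eq_zero_iff_of_nonneg (fun i _ => h1 (Sum.inr (Sum.inl i)))).1 hs0 i
          (Finset.mem_univ i)
        simp [this]
      · have hp : 0 < 1 - z (Sum.inl ()) := by linarith
        refine ⟨fun i => (1 - z (Sum.inl ()))⁻¹ * z (Sum.inr (Sum.inl i)), ⟨fun i => ?_, ?_⟩, ?_⟩
        · exact mul_nonneg (inv_nonneg.2 hp.le) (h1 _)
        · rw [← Finset.mul_sum, inv_mul_le_iff₀ hp]
          linarith
        · ext i
          simp only [Pi.smul_apply, smul_eq_mul]
          field_simp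
    · show (fun j => z (Sum.inr (Sum.inr j))) ∈ z (Sum.inl ()) • (Set.univ : Set (Fin 0 → ℝ))
      exact ⟨fun j => j.elim0, Set.mem_univ _, by ext j; exact j.elim0⟩

theorem Mom_step [DecidableEq ι] (h : Mom ι) : Mom (Unit ⊕ (ι ⊕ Fin 0)) := by
  obtain ⟨hV, h1, h2⟩ := h
  have hcard : Fintype.card (Unit ⊕ (ι ⊕ Fin 0)) = Fintype.card ι + 1 := by simp; ring
  have hp : vol (Set.univ : Set (Fin 0 → ℝ)) = 1 := by
    unfold vol
    rw [volume_pi]
    simp
  have hB : IsBody (Set.univ : Set (Fin 0 → ℝ)) := point_body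
  have hG : IsBody (gs ι) := gs_body
  have hf : ((Fintype.card ι).factorial : ℝ) ≠ 0 := by
    exact_mod_cast (Fintype.card ι).factorial_ne_zero
  have hf1 : ((Fintype.card ι + 1).factorial : ℝ) ≠ 0 := by
    exact_mod_cast (Fintype.card ι + 1).factorial_ne_zero
  have hf2 : ((Fintype.card ι + 2).factorial : ℝ) ≠ 0 := by
    exact_mod_cast (Fintype.card ι + 2).factorial_ne_zero
  have F2 : ((Fintype.card ι + 2).factorial : ℝ) =
      ((Fintype.card ι : ℝ) + 2) * (Fintype.card ι + 1).factorial := by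
    rw [Nat.factorial_succ]; push_cast; ring
  have F1 : ((Fintype.card ι + 1).factorial : ℝ) =
      ((Fintype.card ι : ℝ) + 1) * (Fintype.card ι).factorial := by
    rw [Nat.factorial_succ]; push_cast; ring
  have F3 : ((Fintype.card ι + 3).factorial : ℝ) =
      ((Fintype.card ι : ℝ) + 3) * (Fintype.card ι + 2).factorial := by
    rw [Nat.factorial_succ]; push_cast; ring
  refine ⟨?_, ?_, ?_⟩
  · rw [← join_gs, vol_join hG hB, hcard, hV, hp]
    simp only [Fintype.card_fin]
    unfold bb
    simp only [Nat.factorial_zero, Nat.cast_one, add_zero]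
    field_simp
  · rintro (u | i | j)
    · have h := m_k hG hB (k := fun t => t) continuous_id
      have h2 : ∀ t : ℝ, t * ((1 - t) ^ Fintype.card ι * t ^ Fintype.card (Fin 0)) =
          (1 - t) ^ Fintype.card ι * t ^ (1:ℕ) := by intro t; simp; ring
      simp only [h2, int_bb, hV, hp] at h
      rw [← join_gs, hcard]
      refine h.trans ?_
      unfold bb
      simp only [Nat.factorial_one, Nat.cast_one]
      field_simp
    · have h := integral_join hG.2.1 hB.2.1 (k := fun _ => 1) continuous_const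
        (g := fun x => x i) (h := fun _ => 1) (by fun_prop) continuous_const
        (p := 1) (q := 0) (by simp) (by simp)
      simp only [one_mul, mul_one, int_bb, h1, integral_one, hp, Fintype.card_fin, add_zero] at h
      rw [← join_gs, hcard]
      refine h.trans ?_
      unfold bb
      simp only [Nat.factorial_zero, Nat.cast_one, add_zero]
      field_simp
    · exact j.elim0
  · rintro (u | i | j) (u' | i' | j')
    · have h := m_k hG hB (k := fun t => t * t) (by fun_prop)
      have h2 : ∀ t : ℝ, t * t * ((1 - t) ^ Fintype.card ι * t ^ Fintype.card (Fin 0)) =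
          (1 - t) ^ Fintype.card ι * t ^ (2:ℕ) := by intro t; simp; ring
      simp only [h2, int_bb, hV, hp] at h
      rw [← join_gs, hcard]
      refine h.trans ?_
      unfold bb
      simp only [if_true]
      field_simp
      norm_num
    · have h := integral_join hG.2.1 hB.2.1 (k := fun t => t) continuous_id
        (g := fun x => x i') (h := fun _ => 1) (by fun_prop) continuous_const
        (p := 1) (q := 0) (by simp) (by simp)
      have h2 : ∀ t : ℝ, t * ((1 - t) ^ (Fintype.card ι + 1) * t ^ (Fintype.card (Fin 0) + 0)) =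
          (1 - t) ^ (Fintype.card ι + 1) * t ^ (1:ℕ) := by intro t; simp; ring
      simp only [mul_one, h2, int_bb, h1, integral_one, hp] at h
      rw [← join_gs, hcard]
      refine h.trans ?_
      unfold bb
      simp only [Nat.factorial_one, Nat.cast_one, reduceCtorEq, if_false]
      field_simp
    · exact j'.elim0
    · have h := integral_join hG.2.1 hB.2.1 (k := fun t => t) continuous_id
        (g := fun x => x i) (h := fun _ => 1) (by fun_prop) continuous_const
        (p := 1) (q := 0) (by simp) (by simp)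
      have h2 : ∀ t : ℝ, t * ((1 - t) ^ (Fintype.card ι + 1) * t ^ (Fintype.card (Fin 0) + 0)) =
          (1 - t) ^ (Fintype.card ι + 1) * t ^ (1:ℕ) := by intro t; simp; ring
      simp only [mul_one, h2, int_bb, h1, integral_one, hp] at h
      rw [← join_gs, hcard]
      have e : (fun z : Unit ⊕ (ι ⊕ Fin 0) → ℝ => z (Sum.inr (Sum.inl i)) * z (Sum.inl u')) =
          fun z => z (Sum.inl ()) * z (Sum.inr (Sum.inl i)) := by
        ext z; rw [mul_comm]
      rw [e]
      refine h.trans ?_
      unfold bb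
      simp only [Nat.factorial_one, Nat.cast_one, reduceCtorEq, if_false]
      field_simp
    · have h := m_aa hG hB i i'
      rw [h2, hp] at h
      rw [← join_gs, hcard]
      refine h.trans ?_
      unfold bb
      simp only [Nat.factorial_zero, Nat.cast_one, Fintype.card_fin, add_zero, Sum.inr.injEq,
        Sum.inl.injEq]
      field_simp
    · exact j'.elim0
    · exact j.elim0
    · exact j.elim0
    · exact j.elim0

theorem Mom_zero : Mom (Fin 0) := by
  have hu : gs (Fin 0) = Set.univ := by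
    ext x; simp [gs]
  refine ⟨?_, fun i => i.elim0, fun i => i.elim0⟩
  rw [hu]
  have hp : vol (Set.univ : Set (Fin 0 → ℝ)) = 1 := by
    unfold vol
    rw [volume_pi]
    simp
  rw [hp]; simp

theorem Mom_reindex [DecidableEq ι] [DecidableEq κ] (e : ι ≃ κ) (h : Mom ι) : Mom κ := by
  have hfun : ⇑(MeasurableEquiv.piCongrLeft (fun _ : ι => ℝ) e.symm) =
      fun z : κ → ℝ => fun i => z (e i) := by
    ext z i
    obtain ⟨j, rfl⟩ := e.symm.surjective i
    rw [MeasurableEquiv.coe_piCongrLeft, Equiv.piCongrLeft_apply_apply]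
    simp
  have hmp : MeasurePreserving (fun z : κ → ℝ => fun i => z (e i)) volume volume := by
    rw [← hfun]
    exact volume_measurePreserving_piCongrLeft (fun _ : ι => ℝ) e.symm
  have hemb : MeasurableEmbedding (fun z : κ → ℝ => fun i => z (e i)) := by
    rw [← hfun]
    exact (MeasurableEquiv.piCongrLeft (fun _ : ι => ℝ) e.symm).measurableEmbedding
  have hset : (fun z : κ → ℝ => fun i => z (e i)) ⁻¹' gs ι = gs κ := by
    ext z
    simp only [gs, Set.mem_preimage]
    constructor
    · rintro ⟨h1, h2⟩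
      refine ⟨fun j => by simpa using h1 (e.symm j), ?_⟩
      rwa [Equiv.sum_comp e z] at h2
    · rintro ⟨h1, h2⟩
      refine ⟨fun i => h1 (e i), ?_⟩
      rwa [Equiv.sum_comp e z]
  have key : ∀ g : (ι → ℝ) → ℝ,
      ∫ z in gs κ, g (fun i => z (e i)) = ∫ x in gs ι, g x := by
    intro g
    rw [← hset]
    exact hmp.setIntegral_preimage_emb hemb g _
  have hvol : vol (gs κ) = vol (gs ι) := by
    rw [← hset]
    unfold vol; rw [hmp.measure_preimage_emb hemb]
  have hc : Fintype.card κ = Fintype.card ι := (Fintype.card_congr e).symm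
  obtain ⟨h0, h1, h2⟩ := h
  refine ⟨by rw [hvol, hc, h0], ?_, ?_⟩
  · intro i
    have := key (fun x => x (e.symm i))
    simp only [Equiv.apply_symm_apply] at this
    rw [this, hc, h1]
  · intro i j
    have := key (fun x => x (e.symm i) * x (e.symm j))
    simp only [Equiv.apply_symm_apply] at this
    rw [this, hc, h2]
    simp

theorem Mom_fin (n : ℕ) : Mom (Fin n) := by
  induction n with
  | zero => exact Mom_zero
  | succ n ih =>
    have hc : Fintype.card (Unit ⊕ (Fin n ⊕ Fin 0)) = n + 1 := by simp; ring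
    exact Mom_reindex (Fintype.equivFinOfCardEq hc) (Mom_step ih)

theorem Fk_simplex (n : ℕ) : Fk (stdSimp n) = s n := by
  obtain ⟨hV, h1, h2⟩ := Mom_fin n
  simp only [Fintype.card_fin] at hV h1 h2
  have hgs : stdSimp n = gs (Fin n) := rfl
  have hG : IsBody (gs (Fin n)) := gs_body
  have hf : (n.factorial : ℝ) ≠ 0 := by exact_mod_cast n.factorial_ne_zero
  have F2 : ((n + 2).factorial : ℝ) = ((n : ℝ) + 2) * ((n + 1) * n.factorial) := by
    rw [Nat.factorial_succ, Nat.factorial_succ]; push_cast; ring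
  have F1 : ((n + 1).factorial : ℝ) = ((n : ℝ) + 1) * n.factorial := by
    rw [Nat.factorial_succ]; push_cast; ring
  have hbar : ∀ i, bar (gs (Fin n)) i = 1 / ((n : ℝ) + 1) := by
    intro i
    unfold bar
    rw [h1, hV, F1]
    field_simp
  have hcov : Cov (gs (Fin n)) = (1 / (((n : ℝ) + 1) * (n + 2))) •
      (1 + Matrix.replicateCol Unit (fun _ => -(1 / ((n : ℝ) + 1))) *
        Matrix.replicateRow Unit (fun _ : Fin n => (1 : ℝ))) := by
    ext i j
    simp only [Cov, Matrix.of_apply, hbar, Matrix.smul_apply, Matrix.add_apply, smul_eq_mul,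
      Matrix.mul_apply, Matrix.replicateCol_apply, Matrix.replicateRow_apply, Finset.univ_unique,
      Finset.sum_singleton, mul_one]
    have e : ∀ x : Fin n → ℝ, (x i - 1 / ((n : ℝ) + 1)) * (x j - 1 / ((n : ℝ) + 1)) =
        (x i * x j - (1 / ((n : ℝ) + 1)) * x i) + ((1 / ((n : ℝ) + 1)) ^ 2 -
          (1 / ((n : ℝ) + 1)) * x j) := by
      intro x; ring
    simp only [e]
    rw [integral_add (intK hG (by fun_prop)) (intK hG (by fun_prop)),
      integral_sub (intK hG (by fun_prop)) (intK hG (by fun_prop)),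
      integral_sub (intK hG (by fun_prop)) (intK hG (by fun_prop)),
      integral_const_mul, integral_const_mul, h1, h1, h2]
    have h3 : ∫ _ in gs (Fin n), (1 / ((n : ℝ) + 1)) ^ 2 = (1 / ((n : ℝ) + 1)) ^ 2 * vol (gs (Fin n)) := by
      rw [setIntegral_const, real_vol, smul_eq_mul, mul_comm]
    rw [h3, hV, F2, F1, Matrix.one_apply]
    split_ifs <;> field_simp <;> ring
  unfold Fk
  rw [hgs, hcov, Matrix.det_smul, Matrix.det_one_add_replicateCol_mul_replicateRow, hV]
  simp only [Fintype.card_fin, dotProduct, one_mul, Finset.sum_const, Finset.card_univ,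
    nsmul_eq_mul]
  have e1 : (1 + (n : ℝ) * -(1 / ((n : ℝ) + 1))) = 1 / ((n : ℝ) + 1) := by
    field_simp
    ring
  rw [e1, div_pow, one_pow, mul_pow]
  unfold s
  have p1 : (0:ℝ) < (n : ℝ) + 1 := by positivity
  have p2 : (0:ℝ) < (n : ℝ) + 2 := by positivity
  generalize (n : ℝ) + 1 = A at *
  generalize (n : ℝ) + 2 = B at *
  field_simp
  ring

end Vale.Agent.P254j
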